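import Mathlib
import Crest.Prelude.Def_BernoulliConv

set_option autoImplicit false

open Polynomial
open Crest.AnalysisR

namespace Crest.Agent.QSalem

/-- rational relations of degree ≤ 3 are trivial -/
lemma indep {β : ℝ} (hdeg : (minpoly ℚ β).natDegree = 4) (c0 c1 c2 c3 : ℚ)
    (h0 : (c0 : ℝ) + c1 * β + c2 * β ^ 2 + c3 * β ^ 3 = 0) : c0 = 0 ∧ c1 = 0 ∧ c2 = 0 ∧ c3 = 0 := by
  set q : ℚ[X] := C c0 + C c1 * X + C c2 * X ^ 2 + C c3 * X ^ 3 with hq
  have hq0 : aeval β q = 0 := by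
    simp [hq]
    exact h0
  have hqz : q = 0 := by
    by_contra hne
    have h1 := minpoly.degree_le_of_ne_zero ℚ β hne hq0
    have h2 := natDegree_le_natDegree h1
    have h3 : q.natDegree ≤ 3 := by
      rw [hq]; compute_degree
    omega
  have hc : ∀ n, q.coeff n = 0 := by intro n; rw [hqz]; simp
  have e0 := hc 0
  have e1 := hc 1
  have e2 := hc 2
  have e3 := hc 3
  simp [hq, coeff_X, coeff_C, coeff_X_pow] at e0 e1 e2 e3
  exact ⟨e0, e1, e2, e3⟩

lemma poly_form {β : ℝ} (h : IsIntegral ℤ β) (hdeg : (minpoly ℚ β).natDegree = 4) :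
    ∃ a0 a1 a2 a3 : ℤ, ∀ {A : Type} [Field A] [Algebra ℚ A] (x : A),
      aeval x (minpoly ℚ β) = a0 + a1 * x + a2 * x ^ 2 + a3 * x ^ 3 + x ^ 4 := by
  have h1 : minpoly ℚ β = (minpoly ℤ β).map (algebraMap ℤ ℚ) :=
    minpoly.isIntegrallyClosed_eq_field_fractions' ℚ h
  have hmon : (minpoly ℚ β).coeff 4 = 1 := by
    have h2 : (minpoly ℚ β).Monic := minpoly.monic (h.tower_top)
    have h3 := h2.coeff_natDegree
    rwa [hdeg] at h3
  refine ⟨(minpoly ℤ β).coeff 0, (minpoly ℤ β).coeff 1, (minpoly ℤ β).coeff 2,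
    (minpoly ℤ β).coeff 3, ?_⟩
  intro A _ _ x
  rw [aeval_eq_sum_range, hdeg]
  have hc : ∀ i, (minpoly ℚ β).coeff i = ((minpoly ℤ β).coeff i : ℚ) := by
    intro i; rw [h1, coeff_map]; simp
  rw [Finset.sum_range_succ, hmon]
  simp only [hc]
  simp [Finset.sum_range_succ, Algebra.smul_def]

theorem salem_cases {β : ℝ} (hS : IsQuarticSalem β) (hβ2 : β < 2) :
    (β + β⁻¹) ^ 2 - (β + β⁻¹) - 3 = 0 ∨ (β + β⁻¹) ^ 2 - 2 * (β + β⁻¹) - 1 = 0 := by
  obtain ⟨hβ1, hint, hdeg, hinv, hroots⟩ := hS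
  obtain ⟨a0, a1, a2, a3, hform⟩ := poly_form hint hdeg
  have hβ0 : 0 < β := by linarith
  have hind := indep hdeg
  have E1 : (a0 : ℝ) + a1 * β + a2 * β ^ 2 + a3 * β ^ 3 + β ^ 4 = 0 := by
    rw [← hform β]; exact minpoly.aeval ℚ β
  have E2 : (a0 : ℝ) + a1 * β⁻¹ + a2 * β⁻¹ ^ 2 + a3 * β⁻¹ ^ 3 + β⁻¹ ^ 4 = 0 := by
    rw [← hform β⁻¹]; exact hinv
  have E3 : (a0 : ℝ) * β ^ 4 + a1 * β ^ 3 + a2 * β ^ 2 + a3 * β + 1 = 0 := by
    have : ((a0 : ℝ) + a1 * β⁻¹ + a2 * β⁻¹ ^ 2 + a3 * β⁻¹ ^ 3 + β⁻¹ ^ 4) * β ^ 4 = 0 := by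
      rw [E2, zero_mul]
    rw [← this]
    field_simp
  -- subtract
  have E4 : (((1 - a0 * a0 : ℤ) : ℚ) : ℝ) + ((a3 - a0 * a1 : ℤ) : ℚ) * β +
      ((a2 - a0 * a2 : ℤ) : ℚ) * β ^ 2 + ((a1 - a0 * a3 : ℤ) : ℚ) * β ^ 3 = 0 := by
    push_cast
    linear_combination E3 - (a0 : ℝ) * E1
  obtain ⟨f0, f1, f2, f3⟩ := hind _ _ _ _ E4
  have g0 : 1 - a0 * a0 = 0 := by exact_mod_cast f0
  have g1 : a3 - a0 * a1 = 0 := by exact_mod_cast f1
  have g2 : a2 - a0 * a2 = 0 := by exact_mod_cast f2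
  have g3 : a1 - a0 * a3 = 0 := by exact_mod_cast f3
  have ha0 : a0 = 1 ∨ a0 = -1 := by
    have : (a0 - 1) * (a0 + 1) = 0 := by linarith
    rcases mul_eq_zero.mp this with h | h
    · left; linarith
    · right; linarith
  rcases ha0 with ha0 | ha0
  swap
  · -- a0 = -1
    exfalso
    have h2 : a2 = 0 := by rw [ha0] at g2; linarith
    have h1 : a3 = -a1 := by rw [ha0] at g1; linarith
    rw [ha0, h2, h1] at E1
    push_cast at E1
    have h3 : (β ^ 2 - 1) * (β ^ 2 - a1 * β + 1) = 0 := by linear_combination E1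
    rcases mul_eq_zero.mp h3 with h | h
    · nlinarith
    · have h4 : (((1 : ℤ) : ℚ) : ℝ) + ((-a1 : ℤ) : ℚ) * β + ((1 : ℤ) : ℚ) * β ^ 2 + ((0 : ℤ) : ℚ) * β ^ 3 = 0 := by
        push_cast; linarith
      obtain ⟨e, -, -, -⟩ := hind _ _ _ _ h4
      norm_num at e
  · -- a0 = 1
    have h13 : a3 = a1 := by rw [ha0] at g1; linarith
    rw [ha0, h13] at E1
    push_cast at E1
    set u := β + β⁻¹ with hu
    have hmul : β * β⁻¹ = 1 := mul_inv_cancel₀ hβ0.ne'
    have Eu : u ^ 2 + a1 * u + (a2 - 2) = 0 := by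
      have : (u ^ 2 + a1 * u + (a2 - 2)) * β ^ 2 = 0 := by
        rw [hu]
        have e : ((β + β⁻¹) ^ 2 + a1 * (β + β⁻¹) + (a2 - 2)) * β ^ 2 =
            β ^ 4 + 2 * (β * β⁻¹) * β ^ 2 + (β * β⁻¹) ^ 2 + a1 * (β ^ 3 + (β * β⁻¹) * β) + (a2 - 2) * β ^ 2 := by ring
        rw [e, hmul]
        linear_combination E1
      rcases mul_eq_zero.mp this with h | h
      · exact h
      · exfalso; have : β ^ 2 > 0 := by positivity
        linarith
    have hinvpos : 0 < β⁻¹ := inv_pos.mpr hβ0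
    have hu2 : 2 < u := by
      rw [hu]
      nlinarith [sq_nonneg (β - 1)]
    have hu52 : u < 5 / 2 := by
      rw [hu]
      nlinarith
    set v : ℝ := -a1 - u with hv
    -- claim |v| < 2
    have hvlt : |v| < 2 := by
      by_contra hcon
      push Not at hcon
      have hv4 : 4 ≤ v ^ 2 := by
        rw [← sq_abs]; nlinarith
      set z : ℝ := (v + Real.sqrt (v ^ 2 - 4)) / 2 with hz
      have hsq := Real.mul_self_sqrt (by linarith : 0 ≤ v ^ 2 - 4)
      have hzeq : z ^ 2 - v * z + 1 = 0 := by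
        rw [hz]; nlinarith
      have hfac : ∀ x : ℝ, 1 + a1 * x + a2 * x ^ 2 + a1 * x ^ 3 + x ^ 4 =
          (x ^ 2 - u * x + 1) * (x ^ 2 - v * x + 1) := by
        intro x
        have : u * v = a2 - 2 := by rw [hv]; linarith
        have h5 : u + v = -a1 := by rw [hv]; ring
        linear_combination (-x - x ^ 3) * h5 - x ^ 2 * this
      have hPz : (1 : ℝ) + a1 * z + a2 * z ^ 2 + a1 * z ^ 3 + z ^ 4 = 0 := by
        rw [hfac, hzeq, mul_zero]
      have hPzC : aeval (z : ℂ) (minpoly ℚ β) = 0 := by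
        rw [hform (z : ℂ), ha0, h13]
        have := congrArg (fun x : ℝ => (x : ℂ)) hPz
        push_cast at this ⊢
        exact this
      -- v = u impossible
      have hne_uv : u ≠ v := by
        intro h
        have h5 : (((2 : ℤ) : ℚ) : ℝ) + ((a1 : ℤ) : ℚ) * β + ((2 : ℤ) : ℚ) * β ^ 2 + ((0 : ℤ) : ℚ) * β ^ 3 = 0 := by
          have h6 : 2 * u = -a1 := by rw [hv] at h; linarith
          push_cast
          have h7 : (2 * u + a1) * β = 0 := by rw [h6]; ring
          have h8 : u * β = β ^ 2 + 1 := by rw [hu]; nlinarith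
          linear_combination h7 - 2 * h8
        obtain ⟨e, -, -, -⟩ := hind _ _ _ _ h5
        norm_num at e
      have hzpm : z = 1 ∨ z = -1 := by
        rcases hroots (z : ℂ) hPzC with h | h | h
        · exfalso
          have : z = β := by exact_mod_cast h
          rw [this] at hzeq
          apply hne_uv
          have h7 : v * β = β ^ 2 + 1 := by linarith
          have h8 : u * β = β ^ 2 + 1 := by rw [hu]; nlinarith
          have : (u - v) * β = 0 := by linarith
          rcases mul_eq_zero.mp this with h | h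
          · linarith
          · linarith
        · exfalso
          have : z = β⁻¹ := by exact_mod_cast h
          rw [this] at hzeq
          apply hne_uv
          have h7 : v * β⁻¹ = β⁻¹ ^ 2 + 1 := by linarith
          have h8 : u * β⁻¹ = β⁻¹ ^ 2 + 1 := by rw [hu]; nlinarith
          have : (u - v) * β⁻¹ = 0 := by linarith
          rcases mul_eq_zero.mp this with h | h
          · linarith
          · linarith
        · rw [Complex.norm_real, Real.norm_eq_abs] at h
          rcases abs_cases z with ⟨h1, _⟩ | ⟨h1, _⟩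
          · left; linarith
          · right; linarith
      rcases hzpm with h | h
      · -- P(1) = 0
        rw [h] at hPz
        have h5 : (a2 : ℝ) = -2 - 2 * a1 := by linarith
        have h6 : (β - 1) ^ 2 * (β ^ 2 + (a1 + 2) * β + 1) = 0 := by
          rw [h5] at E1
          linear_combination E1
        rcases mul_eq_zero.mp h6 with h | h
        · have : β - 1 = 0 := by nlinarith [sq_nonneg (β - 1), pow_eq_zero_iff (n := 2) (a := β - 1) (by norm_num) |>.mp h]
          linarith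
        · have h7 : (((1 : ℤ) : ℚ) : ℝ) + ((a1 + 2 : ℤ) : ℚ) * β + ((1 : ℤ) : ℚ) * β ^ 2 + ((0 : ℤ) : ℚ) * β ^ 3 = 0 := by
            push_cast; linarith
          obtain ⟨e, -, -, -⟩ := hind _ _ _ _ h7
          norm_num at e
      · rw [h] at hPz
        have h5 : (a2 : ℝ) = -2 + 2 * a1 := by linarith
        have h6 : (β + 1) ^ 2 * (β ^ 2 + (a1 - 2) * β + 1) = 0 := by
          rw [h5] at E1
          linear_combination E1
        rcases mul_eq_zero.mp h6 with h | h
        · have : 0 < (β + 1) ^ 2 := by positivity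
          linarith
        · have h7 : (((1 : ℤ) : ℚ) : ℝ) + ((a1 - 2 : ℤ) : ℚ) * β + ((1 : ℤ) : ℚ) * β ^ 2 + ((0 : ℤ) : ℚ) * β ^ 3 = 0 := by
            push_cast; linarith
          obtain ⟨e, -, -, -⟩ := hind _ _ _ _ h7
          norm_num at e
    obtain ⟨hv1, hv2⟩ := abs_lt.mp hvlt
    -- bounds on a1
    have ha1lo : (-5 : ℝ) < a1 := by rw [hv] at hv2; linarith
    have ha1hi : (a1 : ℝ) < 0 := by rw [hv] at hv1; linarith
    have ha1lo' : -5 < a1 := by exact_mod_cast ha1lo
    have ha1hi' : a1 < 0 := by exact_mod_cast ha1hi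
    have ha2 : (a2 : ℝ) = 2 - a1 * u - u ^ 2 := by linarith
    have hcase : a1 = -1 ∨ a1 = -2 ∨ a1 = -3 ∨ a1 = -4 := by omega
    rcases hcase with h | h | h | h
    · left
      rw [h] at ha2
      push_cast at ha2
      have h5 : (-2 : ℝ) < a2 := by rw [ha2]; nlinarith
      have h6 : (a2 : ℝ) < 0 := by rw [ha2]; nlinarith
      have h5' : -2 < a2 := by exact_mod_cast h5
      have h6' : a2 < 0 := by exact_mod_cast h6
      have h7 : a2 = -1 := by omega
      rw [h7] at ha2
      push_cast at ha2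
      linarith
    · right
      rw [h] at ha2
      push_cast at ha2
      have h5 : (0 : ℝ) < a2 := by rw [ha2]; nlinarith
      have h6 : (a2 : ℝ) < 2 := by rw [ha2]; nlinarith
      have h5' : 0 < a2 := by exact_mod_cast h5
      have h6' : a2 < 2 := by exact_mod_cast h6
      have h7 : a2 = 1 := by omega
      rw [h7] at ha2
      push_cast at ha2
      linarith
    · exfalso
      rw [h] at ha2
      push_cast at ha2
      have h5 : (3 : ℝ) < a2 := by rw [ha2]; nlinarith
      have h6 : (a2 : ℝ) < 4 := by rw [ha2]; nlinarith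
      have h5' : 3 < a2 := by exact_mod_cast h5
      have h6' : a2 < 4 := by exact_mod_cast h6
      omega
    · exfalso
      rw [h] at ha2
      push_cast at ha2
      have h5 : (5 : ℝ) < a2 := by rw [ha2]; nlinarith
      have h6 : (a2 : ℝ) < 6 := by rw [ha2]; nlinarith
      have h5' : 5 < a2 := by exact_mod_cast h5
      have h6' : a2 < 6 := by exact_mod_cast h6
      omega

end Crest.Agent.QSalem
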