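import Mathlib
import Crest.Prelude.Def_BernoulliConv

set_option autoImplicit false

open MeasureTheory ProbabilityTheory Filter Topology
open Crest.AnalysisR

namespace Crest.Agent.QSalem

/-- partial products of the Fourier transform -/
noncomputable def Ph (c t : ℝ) (n : ℕ) : ℝ := ∏ i ∈ Finset.range n, Real.cos (t * c ^ i)

instance : IsProbabilityMeasure fairCoin := by
  constructor
  simp [fairCoin, ENNReal.inv_two_add_inv_two]

noncomputable def sgnTerm (c : ℝ) (n : ℕ) (b : Bool) : ℝ := if b then c ^ n else -(c ^ n)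

lemma measurable_sgnTerm (c : ℝ) (n : ℕ) : Measurable (sgnTerm c n) := measurable_of_countable _

lemma abs_sgnTerm (c : ℝ) (hc : 0 ≤ c) (n : ℕ) (b : Bool) : |sgnTerm c n b| = c ^ n := by
  unfold sgnTerm
  split_ifs
  · exact abs_of_nonneg (pow_nonneg hc n)
  · rw [abs_neg]; exact abs_of_nonneg (pow_nonneg hc n)

lemma signedPowerSum_eq (c : ℝ) (ε : ℕ → Bool) :
    signedPowerSum c ε = ∑' n, sgnTerm c n (ε n) := rfl

lemma summable_sgn {c : ℝ} (hc0 : 0 ≤ c) (hc1 : c < 1) (ε : ℕ → Bool) :
    Summable (fun n => sgnTerm c n (ε n)) := by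
  refine Summable.of_norm_bounded (g := fun n => c ^ n) (summable_geometric_of_lt_one hc0 hc1) ?_
  intro n
  rw [Real.norm_eq_abs, abs_sgnTerm c hc0]

lemma abs_signedPowerSum_le {c : ℝ} (hc0 : 0 ≤ c) (hc1 : c < 1) (ε : ℕ → Bool) :
    |signedPowerSum c ε| ≤ (1 - c)⁻¹ := by
  rw [signedPowerSum_eq, ← tsum_geometric_of_lt_one hc0 hc1, ← Real.norm_eq_abs]
  refine tsum_of_norm_bounded (summable_geometric_of_lt_one hc0 hc1).hasSum ?_
  intro n
  rw [Real.norm_eq_abs, abs_sgnTerm c hc0]

lemma tendsto_partial {c : ℝ} (hc0 : 0 ≤ c) (hc1 : c < 1) (ε : ℕ → Bool) :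
    Tendsto (fun n => ∑ k ∈ Finset.range n, sgnTerm c k (ε k)) atTop (𝓝 (signedPowerSum c ε)) :=
  (summable_sgn hc0 hc1 ε).hasSum.tendsto_sum_nat

lemma measurable_partial (c : ℝ) (n : ℕ) :
    Measurable (fun ε : ℕ → Bool => ∑ k ∈ Finset.range n, sgnTerm c k (ε k)) := by
  refine Finset.measurable_sum _ fun k _ => ?_
  exact (measurable_sgnTerm c k).comp (measurable_pi_apply k)

lemma measurable_signedPowerSum {c : ℝ} (hc0 : 0 ≤ c) (hc1 : c < 1) :
    Measurable (signedPowerSum c) := by
  refine measurable_of_tendsto_metrizable (fun n => measurable_partial c n) ?_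
  rw [tendsto_pi_nhds]
  intro ε
  exact tendsto_partial hc0 hc1 ε

noncomputable abbrev coinProd : Measure (ℕ → Bool) := Measure.infinitePi (fun _ : ℕ => fairCoin)

lemma charFun_term (c t : ℝ) (k : ℕ) :
    charFun (coinProd.map (fun ε : ℕ → Bool => sgnTerm c k (ε k))) t = (Real.cos (t * c ^ k) : ℂ) := by
  have h1 : coinProd.map (fun ε : ℕ → Bool => sgnTerm c k (ε k)) = fairCoin.map (sgnTerm c k) := by
    have := Measure.map_map (μ := coinProd) (measurable_sgnTerm c k) (measurable_pi_apply (X := fun _ : ℕ => Bool) k)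
    rw [← Measure.infinitePi_map_eval (fun _ : ℕ => fairCoin) k, Measure.map_map (measurable_sgnTerm c k) (by fun_prop)]
    rfl
  rw [h1, charFun_apply_real, integral_map (measurable_sgnTerm c k).aemeasurable (by fun_prop)]
  rw [fairCoin, integral_add_measure, integral_smul_measure, integral_smul_measure, integral_dirac,
    integral_dirac]
  · simp only [sgnTerm, if_true, Bool.false_eq_true, if_false]
    rw [Complex.ofReal_cos, Complex.cos]
    simp
    ring_nf
  · exact Integrable.smul_measure (integrable_dirac (by simp)) (by simp)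
  · exact Integrable.smul_measure (integrable_dirac (by simp)) (by simp)

lemma charFun_partial (c t : ℝ) (n : ℕ) :
    ∫ ε, Complex.exp (t * (∑ k ∈ Finset.range n, sgnTerm c k (ε k) : ℝ) * Complex.I) ∂coinProd
      = (Ph c t n : ℂ) := by
  have hind : iIndepFun (fun k (ε : ℕ → Bool) => sgnTerm c k (ε k)) coinProd :=
    iIndepFun_infinitePi (P := fun _ : ℕ => fairCoin) (X := fun k => sgnTerm c k)
      (measurable_sgnTerm c)
  have h := (hind.restrict (Finset.range n))
  have h2 := iIndepFun.charFun_map_fun_finsetSum_eq_prod (P := coinProd) (s := Finset.range n)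
    (X := fun k (ε : ℕ → Bool) => sgnTerm c k (ε k))
    (fun i _ => ((measurable_sgnTerm c i).comp (measurable_pi_apply i)).aemeasurable) h
  have h3 := congrFun h2 t
  rw [charFun_apply_real, integral_map (measurable_partial c n).aemeasurable (by fun_prop)] at h3
  rw [h3, Finset.prod_apply, Ph]
  push_cast
  refine Finset.prod_congr rfl fun k _ => ?_
  rw [charFun_term]
  push_cast
  rfl

lemma integral_cos_partial (c t : ℝ) (n : ℕ) :
    ∫ ε, Real.cos (t * (∑ k ∈ Finset.range n, sgnTerm c k (ε k))) ∂coinProd = Ph c t n := by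
  have h := congrArg Complex.re (charFun_partial c t n)
  rw [Complex.ofReal_re] at h
  rw [← h]
  have hint : Integrable (fun ε : ℕ → Bool => Complex.exp (t * (∑ k ∈ Finset.range n, sgnTerm c k (ε k) : ℝ) * Complex.I)) coinProd := by
    refine Integrable.of_bound (C := 1) ?_ ?_
    · have := measurable_partial c n
      exact (Measurable.aestronglyMeasurable (by fun_prop))
    · refine ae_of_all _ fun ε => ?_
      rw [← Complex.ofReal_mul, Complex.norm_exp_ofReal_mul_I]
  have := (integral_re hint)
  simp only [RCLike.re_to_complex] at this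
  rw [← this]
  refine integral_congr_ae (ae_of_all _ fun ε => ?_)
  simp only
  rw [← Complex.ofReal_mul, Complex.exp_ofReal_mul_I_re]

/-- The Fourier transform of the Bernoulli convolution as limit of the products of cosines. -/
lemma tendsto_Ph {c : ℝ} (hc0 : 0 ≤ c) (hc1 : c < 1) (t : ℝ) :
    Tendsto (Ph c t) atTop (𝓝 (∫ x, Real.cos (t * x) ∂(bernoulliConvolution c))) := by
  rw [bernoulliConvolution, integral_map (measurable_signedPowerSum hc0 hc1).aemeasurable (by fun_prop)]
  have : Ph c t = fun n => ∫ ε, Real.cos (t * (∑ k ∈ Finset.range n, sgnTerm c k (ε k))) ∂coinProd := by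
    ext n; rw [integral_cos_partial]
  rw [this]
  refine tendsto_integral_of_dominated_convergence (fun _ => 1) ?_ ?_ ?_ ?_
  · intro n
    have := measurable_partial c n
    exact (Measurable.aestronglyMeasurable (by fun_prop))
  · exact integrable_const _
  · intro n
    refine ae_of_all _ fun ε => ?_
    exact Real.abs_cos_le_one _
  · refine ae_of_all _ fun ε => ?_
    exact (Real.continuous_cos.tendsto _).comp ((tendsto_partial hc0 hc1 ε).const_mul t)

lemma isProb_bernoulli {c : ℝ} (hc0 : 0 ≤ c) (hc1 : c < 1) :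
    IsProbabilityMeasure (bernoulliConvolution c) := by
  unfold bernoulliConvolution
  exact Measure.isProbabilityMeasure_map (measurable_signedPowerSum hc0 hc1).aemeasurable

lemma bernoulli_support {c : ℝ} (hc0 : 0 ≤ c) (hc1 : c < 1) :
    bernoulliConvolution c (Set.Icc (-(1 - c)⁻¹) (1 - c)⁻¹)ᶜ = 0 := by
  unfold bernoulliConvolution
  rw [Measure.map_apply (measurable_signedPowerSum hc0 hc1) measurableSet_Icc.compl]
  have : signedPowerSum c ⁻¹' (Set.Icc (-(1 - c)⁻¹) (1 - c)⁻¹)ᶜ = ∅ := by
    ext ε
    simp only [Set.mem_preimage, Set.mem_compl_iff, Set.mem_Icc, Set.mem_empty_iff_false, iff_false, not_not]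
    exact abs_le.mp (abs_signedPowerSum_le hc0 hc1 ε)
  rw [this, measure_empty]

end Crest.Agent.QSalem
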