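import Mathlib

set_option autoImplicit false

open Real Filter Topology MeasureTheory

namespace Crest.Agent.QSalem

section
variable (s t : ℕ → ℝ) (M : ℕ)

noncomputable def YY (x : ℝ) : ℝ := ∑ k ∈ Finset.range M, s k * cos (t k * x)

lemma YY_cont : Continuous (YY s t M) := by unfold YY; fun_prop

lemma YY_sq (x : ℝ) : YY s t M x ^ 2 =
    ∑ k ∈ Finset.range M, ∑ j ∈ Finset.range M, s k * s j * (cos (t k * x) * cos (t j * x)) := by
  unfold YY
  rw [sq, Finset.sum_mul_sum]
  refine Finset.sum_congr rfl fun k _ => Finset.sum_congr rfl fun j _ => ?_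
  ring

lemma cos_mul_cos_eq (a b : ℝ) : cos a * cos b = (cos (a - b) + cos (a + b)) / 2 := by
  rw [cos_sub, cos_add]; ring

end

lemma integrable_cos_mul {ν : Measure ℝ} [IsFiniteMeasure ν] (a : ℝ) :
    Integrable (fun x => cos (a * x)) ν := by
  refine Integrable.of_bound (C := 1) (by fun_prop) (ae_of_all _ fun x => ?_)
  exact abs_cos_le_one _

lemma integral_cos_cos {ν : Measure ℝ} [IsFiniteMeasure ν] (a b : ℝ) :
    ∫ x, cos (a * x) * cos (b * x) ∂ν =
      ((∫ x, cos ((a - b) * x) ∂ν) + ∫ x, cos ((a + b) * x) ∂ν) / 2 := by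
  rw [← integral_add (integrable_cos_mul _) (integrable_cos_mul _), ← integral_div]
  refine integral_congr_ae (ae_of_all _ fun x => ?_)
  simp only
  rw [cos_mul_cos_eq]
  ring_nf

lemma integrable_YYsq {ν : Measure ℝ} [IsFiniteMeasure ν] (s t : ℕ → ℝ) (M : ℕ) :
    Integrable (fun x => YY s t M x ^ 2) ν := by
  have h := YY_cont s t M
  refine Integrable.of_bound (C := (∑ k ∈ Finset.range M, |s k|) ^ 2)
    (by have := h.measurable; exact (this.pow_const 2).aestronglyMeasurable) (ae_of_all _ fun x => ?_)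
  rw [Real.norm_eq_abs, abs_pow]
  refine pow_le_pow_left₀ (abs_nonneg _) ?_ 2
  unfold YY
  refine (Finset.abs_sum_le_sum_abs _ _).trans (Finset.sum_le_sum fun k _ => ?_)
  rw [abs_mul]
  exact mul_le_of_le_one_right (abs_nonneg _) (abs_cos_le_one _)

lemma integral_YYsq {ν : Measure ℝ} [IsFiniteMeasure ν] (s t : ℕ → ℝ) (M : ℕ) :
    ∫ x, YY s t M x ^ 2 ∂ν = ∑ k ∈ Finset.range M, ∑ j ∈ Finset.range M,
      s k * s j * (((∫ x, cos ((t k - t j) * x) ∂ν) + ∫ x, cos ((t k + t j) * x) ∂ν) / 2) := by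
  simp_rw [YY_sq]
  have hint : ∀ k j, Integrable (fun x => s k * s j * (cos (t k * x) * cos (t j * x))) ν := by
    intro k j
    refine Integrable.const_mul ?_ _
    refine Integrable.of_bound (C := 1) (by fun_prop) (ae_of_all _ fun x => ?_)
    rw [norm_mul]
    exact mul_le_one₀ (abs_cos_le_one _) (norm_nonneg _) (abs_cos_le_one _)
  rw [integral_finsetSum _ (fun k _ => integrable_finsetSum _ (fun j _ => hint k j))]
  refine Finset.sum_congr rfl fun k _ => ?_
  rw [integral_finsetSum _ (fun j _ => hint k j)]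
  refine Finset.sum_congr rfl fun j _ => ?_
  rw [integral_const_mul, integral_cos_cos]

lemma integral_YY {ν : Measure ℝ} [IsFiniteMeasure ν] (s t : ℕ → ℝ) (M : ℕ) :
    ∫ x, YY s t M x ∂ν = ∑ k ∈ Finset.range M, s k * ∫ x, cos (t k * x) ∂ν := by
  unfold YY
  rw [integral_finsetSum _ (fun k _ => (integrable_cos_mul _).const_mul _)]
  refine Finset.sum_congr rfl fun k _ => ?_
  rw [integral_const_mul]

lemma integrable_YY {ν : Measure ℝ} [IsFiniteMeasure ν] (s t : ℕ → ℝ) (M : ℕ) :
    Integrable (fun x => YY s t M x) ν := by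
  unfold YY
  exact integrable_finsetSum _ (fun k _ => (integrable_cos_mul _).const_mul _)

lemma abs_integral_cos_le {B a : ℝ} (ha : a ≠ 0) :
    |∫ x in (-B)..B, cos (a * x)| ≤ 2 / |a| := by
  have h : ∫ x in (-B)..B, cos (a * x) = (sin (a * B) - sin (a * (-B))) / a := by
    rw [intervalIntegral.integral_comp_mul_left (fun x => cos x) ha, integral_cos]
    rw [smul_eq_mul]
    field_simp
  rw [h, abs_div]
  refine div_le_div_of_nonneg_right ?_ (abs_nonneg a)
  have h1 := abs_sin_le_one (a * B)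
  have h2 := abs_sin_le_one (a * (-B))
  have h3 := abs_sub (sin (a * B)) (sin (a * (-B)))
  linarith

lemma diag_sum (M : ℕ) (c : ℝ) :
    ∑ k ∈ Finset.range M, ∑ j ∈ Finset.range M, (if k = j then c else 0) = M * c := by
  rw [Finset.sum_congr rfl (fun k hk => by rw [Finset.sum_ite_eq, if_pos hk])]
  simp

/-- Abstract second moment lemma. -/
lemma second_moment {ν : Measure ℝ} [IsProbabilityMeasure ν] {B : ℝ} (hB : 0 ≤ B)
    (hsupp : ν (Set.Icc (-B) B)ᶜ = 0) (t : ℕ → ℝ) {M : ℕ} (hM : 0 < M) {Ā η D : ℝ}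
    (hA : 0 < Ā) (hη : 0 ≤ η) (hD : 0 < D)
    (h1 : ∀ k < M, Ā ≤ |∫ x, cos (t k * x) ∂ν|)
    (h2 : ∀ k < M, ∀ j < M, k ≠ j →
      |(∫ x, cos ((t k - t j) * x) ∂ν) - (∫ x, cos (t k * x) ∂ν) * (∫ x, cos (t j * x) ∂ν)| ≤
        2 * η * |(∫ x, cos (t k * x) ∂ν) * (∫ x, cos (t j * x) ∂ν)|)
    (h2' : ∀ k < M, ∀ j < M, k ≠ j →
      |(∫ x, cos ((t k + t j) * x) ∂ν) - (∫ x, cos (t k * x) ∂ν) * (∫ x, cos (t j * x) ∂ν)| ≤
        2 * η * |(∫ x, cos (t k * x) ∂ν) * (∫ x, cos (t j * x) ∂ν)|)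
    (h3 : ∀ k < M, ∀ j < M, k ≠ j → D ≤ |t k - t j|)
    (h3' : ∀ k < M, ∀ j < M, k ≠ j → D ≤ |t k + t j|) :
    ∃ E : Set ℝ, MeasurableSet E ∧
      ν Eᶜ ≤ ENNReal.ofReal (4 * (1 / (M * Ā ^ 2) + 2 * η)) ∧
      volume E ≤ ENNReal.ofReal (8 * (B / (M * Ā ^ 2) + 1 / (D * Ā ^ 2))) := by
  set Φ : ℝ → ℝ := fun a => ∫ x, cos (a * x) ∂ν with hΦ
  set s : ℕ → ℝ := fun k => SignType.sign (Φ (t k)) with hs
  set μ : ℝ := ∑ k ∈ Finset.range M, |Φ (t k)| with hμ
  have hMR : (0 : ℝ) < M := by exact_mod_cast hM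
  have hμM : M * Ā ≤ μ := by
    have : ∑ k ∈ Finset.range M, Ā ≤ μ :=
      Finset.sum_le_sum fun k hk => h1 k (Finset.mem_range.mp hk)
    simpa using this
  have hμ0 : 0 < μ := lt_of_lt_of_le (by positivity) hμM
  have hss : ∀ k, s k * Φ (t k) = |Φ (t k)| := fun k => sign_mul_self _
  have hs1 : ∀ k, |s k| ≤ 1 := by
    intro k
    rcases lt_trichotomy (Φ (t k)) 0 with h | h | h <;> simp [hs, h]
  have hs2 : ∀ k < M, s k * s k = 1 := by
    intro k hk
    have : 0 < |Φ (t k)| := hA.trans_le (h1 k hk)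
    rcases lt_trichotomy (Φ (t k)) 0 with h | h | h
    · simp [hs, h]
    · rw [h] at this; simp at this
    · simp [hs, h]
  have hmean : ∫ x, YY s t M x ∂ν = μ := by
    rw [integral_YY]
    exact Finset.sum_congr rfl fun k _ => hss k
  have hΦ1 : ∀ a, |Φ a| ≤ 1 := by
    intro a
    have := norm_integral_le_of_norm_le_const (μ := ν) (f := fun x => cos (a * x)) (C := 1)
      (ae_of_all _ fun x => abs_cos_le_one _)
    simpa using this
  -- second moment under ν
  have hsec : ∫ x, YY s t M x ^ 2 ∂ν ≤ M + (1 + 2 * η) * μ ^ 2 := by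
    rw [integral_YYsq]
    have hterm : ∀ k ∈ Finset.range M, ∀ j ∈ Finset.range M,
        s k * s j * ((Φ (t k - t j) + Φ (t k + t j)) / 2) ≤
          (if k = j then 1 else 0) + (1 + 2 * η) * (|Φ (t k)| * |Φ (t j)|) := by
      intro k hk j hj
      have hk' := Finset.mem_range.mp hk
      have hj' := Finset.mem_range.mp hj
      by_cases hkj : k = j
      · subst hkj
        rw [if_pos rfl, hs2 k hk', one_mul]
        have e1 := (abs_le.mp (hΦ1 (t k - t k))).2
        have e2 := (abs_le.mp (hΦ1 (t k + t k))).2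
        have e3 : 0 ≤ (1 + 2 * η) * (|Φ (t k)| * |Φ (t k)|) := by positivity
        linarith
      · rw [if_neg hkj, zero_add]
        have e1 := h2 k hk' j hj' hkj
        have e2 := h2' k hk' j hj' hkj
        have e3 : s k * s j * (Φ (t k) * Φ (t j)) = |Φ (t k)| * |Φ (t j)| := by
          rw [← hss k, ← hss j]; ring
        have e4 : s k * s j * ((Φ (t k - t j) + Φ (t k + t j)) / 2) =
            |Φ (t k)| * |Φ (t j)| + (s k * s j) * ((Φ (t k - t j) - Φ (t k) * Φ (t j)) +
              (Φ (t k + t j) - Φ (t k) * Φ (t j))) / 2 := by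
          rw [← e3]; ring
        rw [e4]
        have e5 : |s k * s j| ≤ 1 := by
          rw [abs_mul]; exact mul_le_one₀ (hs1 k) (abs_nonneg _) (hs1 j)
        have e6 : (s k * s j) * ((Φ (t k - t j) - Φ (t k) * Φ (t j)) +
              (Φ (t k + t j) - Φ (t k) * Φ (t j))) ≤ 4 * η * |Φ (t k) * Φ (t j)| := by
          refine (le_abs_self _).trans ?_
          rw [abs_mul]
          have e7 := abs_add_le (Φ (t k - t j) - Φ (t k) * Φ (t j)) (Φ (t k + t j) - Φ (t k) * Φ (t j))
          have e8 : |Φ (t k - t j) - Φ (t k) * Φ (t j) + (Φ (t k + t j) - Φ (t k) * Φ (t j))| ≤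
              4 * η * |Φ (t k) * Φ (t j)| := by
            refine e7.trans ?_
            linarith
          calc _ ≤ 1 * |Φ (t k - t j) - Φ (t k) * Φ (t j) + (Φ (t k + t j) - Φ (t k) * Φ (t j))| :=
                mul_le_mul_of_nonneg_right e5 (abs_nonneg _)
            _ ≤ _ := by rw [one_mul]; exact e8
        rw [abs_mul] at e6
        linarith
    refine (Finset.sum_le_sum fun k hk => Finset.sum_le_sum fun j hj => hterm k hk j hj).trans ?_
    have e1 : ∑ k ∈ Finset.range M, ∑ j ∈ Finset.range M,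
        ((if k = j then (1 : ℝ) else 0) + (1 + 2 * η) * (|Φ (t k)| * |Φ (t j)|)) =
        M + (1 + 2 * η) * μ ^ 2 := by
      simp_rw [Finset.sum_add_distrib]
      congr 1
      · rw [diag_sum, mul_one]
      · rw [sq, hμ, Finset.sum_mul_sum, Finset.mul_sum]
        refine Finset.sum_congr rfl fun k _ => ?_
        rw [Finset.mul_sum]
    exact e1.le
  -- variance
  have hvar : ∫ x, (YY s t M x - μ) ^ 2 ∂ν ≤ M + 2 * η * μ ^ 2 := by
    have e1 : ∫ x, (YY s t M x - μ) ^ 2 ∂ν = (∫ x, YY s t M x ^ 2 ∂ν) - μ ^ 2 := by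
      have : (fun x => (YY s t M x - μ) ^ 2) = fun x => (YY s t M x ^ 2 - 2 * μ * YY s t M x) + μ ^ 2 := by
        ext x; ring
      rw [this, integral_add, integral_sub, integral_const_mul, hmean]
      · simp; ring
      · exact integrable_YYsq s t M
      · exact (integrable_YY s t M).const_mul _
      · exact (integrable_YYsq s t M).sub ((integrable_YY s t M).const_mul _)
      · exact integrable_const _
    rw [e1]; linarith
  have hvint : Integrable (fun x => (YY s t M x - μ) ^ 2) ν := by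
    have : (fun x => (YY s t M x - μ) ^ 2) = fun x => (YY s t M x ^ 2 - 2 * μ * YY s t M x) + μ ^ 2 := by
      ext x; ring
    rw [this]
    exact ((integrable_YYsq s t M).sub ((integrable_YY s t M).const_mul _)).add (integrable_const _)
  have hcheb := mul_meas_ge_le_integral_of_nonneg (μ := ν) (f := fun x => (YY s t M x - μ) ^ 2)
    (ae_of_all _ fun x => sq_nonneg _) hvint (μ ^ 2 / 4)
  -- volume side
  have hQ : ∫ x in Set.Icc (-B) B, YY s t M x ^ 2 ≤ 2 * B * M + 2 * M ^ 2 / D := by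
    rw [integral_YYsq (ν := volume.restrict (Set.Icc (-B) B))]
    have hI : ∀ a : ℝ, ∫ x in Set.Icc (-B) B, cos (a * x) = ∫ x in (-B)..B, cos (a * x) := by
      intro a
      rw [intervalIntegral.integral_of_le (by linarith), integral_Icc_eq_integral_Ioc]
    have hI1 : ∀ a : ℝ, |∫ x in Set.Icc (-B) B, cos (a * x)| ≤ 2 * B := by
      intro a
      have := norm_setIntegral_le_of_norm_le_const (μ := volume) (s := Set.Icc (-B) B)
        (f := fun x => cos (a * x)) (C := 1) (by simp) (fun x _ => abs_cos_le_one _)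
      rw [Real.norm_eq_abs] at this
      refine this.trans ?_
      rw [Measure.real, Real.volume_Icc, ENNReal.toReal_ofReal (by linarith)]
      linarith
    have hI2 : ∀ a : ℝ, D ≤ |a| → |∫ x in Set.Icc (-B) B, cos (a * x)| ≤ 2 / D := by
      intro a ha
      rw [hI]
      have ha0 : a ≠ 0 := by
        intro h; rw [h, abs_zero] at ha; linarith
      refine (abs_integral_cos_le ha0).trans ?_
      exact div_le_div_of_nonneg_left (by norm_num) hD ha
    have hterm : ∀ k ∈ Finset.range M, ∀ j ∈ Finset.range M,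
        s k * s j * (((∫ x in Set.Icc (-B) B, cos ((t k - t j) * x)) +
          ∫ x in Set.Icc (-B) B, cos ((t k + t j) * x)) / 2) ≤
          (if k = j then 2 * B else 0) + 2 / D := by
      intro k hk j hj
      have hk' := Finset.mem_range.mp hk
      have hj' := Finset.mem_range.mp hj
      have e5 : |s k * s j| ≤ 1 := by
        rw [abs_mul]; exact mul_le_one₀ (hs1 k) (abs_nonneg _) (hs1 j)
      have hD2 : 0 ≤ 2 / D := by positivity
      refine (le_abs_self _).trans ?_
      rw [abs_mul, abs_div, abs_two]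
      have e7 := abs_add_le (∫ x in Set.Icc (-B) B, cos ((t k - t j) * x))
        (∫ x in Set.Icc (-B) B, cos ((t k + t j) * x))
      by_cases hkj : k = j
      · rw [if_pos hkj]
        have e1 := hI1 (t k - t j)
        have e2 := hI1 (t k + t j)
        calc _ ≤ 1 * ((2 * B + 2 * B) / 2) := by
              refine mul_le_mul e5 ?_ (by positivity) (by norm_num)
              linarith
          _ ≤ _ := by linarith
      · rw [if_neg hkj]
        have e1 := hI2 (t k - t j) (h3 k hk' j hj' hkj)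
        have e2 := hI2 (t k + t j) (h3' k hk' j hj' hkj)
        calc _ ≤ 1 * ((2 / D + 2 / D) / 2) := by
              refine mul_le_mul e5 ?_ (by positivity) (by norm_num)
              linarith
          _ ≤ _ := by linarith
    refine (Finset.sum_le_sum fun k hk => Finset.sum_le_sum fun j hj => hterm k hk j hj).trans ?_
    simp_rw [Finset.sum_add_distrib]
    rw [diag_sum]
    simp only [Finset.sum_const, Finset.card_range, nsmul_eq_mul]
    have : (M : ℝ) * (M * (2 / D)) = 2 * M ^ 2 / D := by ring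
    linarith
  have hvolint : Integrable (fun x => YY s t M x ^ 2) (volume.restrict (Set.Icc (-B) B)) :=
    integrable_YYsq s t M
  have hmark := mul_meas_ge_le_integral_of_nonneg (μ := volume.restrict (Set.Icc (-B) B))
    (f := fun x => YY s t M x ^ 2) (ae_of_all _ fun x => sq_nonneg _) hvolint (μ ^ 2 / 4)
  -- the set
  have hYm := (YY_cont s t M).measurable
  refine ⟨Set.Icc (-B) B ∩ {x | (YY s t M x - μ) ^ 2 < μ ^ 2 / 4}, ?_, ?_, ?_⟩
  · exact measurableSet_Icc.inter (measurableSet_lt ((hYm.sub_const μ).pow_const 2) measurable_const)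
  · have e1 : (Set.Icc (-B) B ∩ {x | (YY s t M x - μ) ^ 2 < μ ^ 2 / 4})ᶜ ⊆
        (Set.Icc (-B) B)ᶜ ∪ {x | μ ^ 2 / 4 ≤ (YY s t M x - μ) ^ 2} := by
      intro x hx
      simp only [Set.mem_compl_iff, Set.mem_inter_iff, Set.mem_ofPred_eq, not_and, not_lt, Set.mem_union] at hx ⊢
      by_cases h : x ∈ Set.Icc (-B) B
      · right; exact hx h
      · left; exact h
    refine (measure_mono e1).trans ((measure_union_le _ _).trans ?_)
    rw [hsupp, zero_add, ← ofReal_measureReal]
    apply ENNReal.ofReal_le_ofReal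
    have e2 : ν.real {x | μ ^ 2 / 4 ≤ (YY s t M x - μ) ^ 2} ≤ 4 * (M + 2 * η * μ ^ 2) / μ ^ 2 := by
      rw [le_div_iff₀ (by positivity)]
      have := hcheb.trans hvar
      nlinarith
    refine e2.trans ?_
    rw [show 4 * (M + 2 * η * μ ^ 2) / μ ^ 2 = 4 * (M / μ ^ 2 + 2 * η) by field_simp]
    have e3 : (M : ℝ) / μ ^ 2 ≤ 1 / (M * Ā ^ 2) := by
      rw [div_le_div_iff₀ (by positivity) (by positivity)]
      have : (M * Ā) ^ 2 ≤ μ ^ 2 := pow_le_pow_left₀ (by positivity) hμM 2
      nlinarith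
    linarith
  · have e1 : volume (Set.Icc (-B) B ∩ {x | (YY s t M x - μ) ^ 2 < μ ^ 2 / 4}) ≤
        (volume.restrict (Set.Icc (-B) B)) {x | μ ^ 2 / 4 ≤ YY s t M x ^ 2} := by
      rw [Measure.restrict_apply' measurableSet_Icc, Set.inter_comm]
      refine measure_mono (Set.inter_subset_inter_left _ ?_)
      intro x hx
      simp only [Set.mem_ofPred_eq] at hx ⊢
      have h4 : |YY s t M x - μ| < μ / 2 := by
        apply lt_of_pow_lt_pow_left₀ 2 (by positivity)
        rw [sq_abs]; nlinarith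
      have h5 := (abs_lt.mp h4).1
      nlinarith
    refine e1.trans ?_
    rw [← ofReal_measureReal]
    apply ENNReal.ofReal_le_ofReal
    have e2 : (volume.restrict (Set.Icc (-B) B)).real {x | μ ^ 2 / 4 ≤ YY s t M x ^ 2} ≤
        4 * (2 * B * M + 2 * M ^ 2 / D) / μ ^ 2 := by
      rw [le_div_iff₀ (by positivity)]
      have := hmark.trans hQ
      nlinarith
    refine e2.trans ?_
    have e3 : (M * Ā) ^ 2 ≤ μ ^ 2 := pow_le_pow_left₀ (by positivity) hμM 2
    calc 4 * (2 * B * M + 2 * M ^ 2 / D) / μ ^ 2 ≤ 4 * (2 * B * M + 2 * M ^ 2 / D) / (M * Ā) ^ 2 := by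
          refine div_le_div_of_nonneg_left (by positivity) (by positivity) e3
      _ = _ := by field_simp; ring

/-- Singularity criterion -/
lemma mutuallySingular_of_forall {ν : Measure ℝ} [IsFiniteMeasure ν]
    (h : ∀ ζ : ℝ, 0 < ζ → ∃ E : Set ℝ, MeasurableSet E ∧ ν Eᶜ ≤ ENNReal.ofReal ζ ∧
      volume E ≤ ENNReal.ofReal ζ) : ν.MutuallySingular (volume : Measure ℝ) := by
  choose! E hE1 hE2 hE3 using h
  set F : ℕ → Set ℝ := fun n => E ((1 / 2 : ℝ) ^ n) with hF
  have hp : ∀ n : ℕ, (0 : ℝ) < (1 / 2 : ℝ) ^ n := fun n => by positivity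
  have hsum : ∑' n, volume (F n) ≠ ⊤ := by
    have h1 : ∑' n, volume (F n) ≤ ∑' n : ℕ, ENNReal.ofReal ((1 / 2 : ℝ) ^ n) :=
      ENNReal.tsum_le_tsum fun n => hE3 _ (hp n)
    refine ne_top_of_le_ne_top ?_ h1
    rw [← ENNReal.ofReal_tsum_of_nonneg (fun n => (hp n).le)
      (summable_geometric_of_lt_one (by norm_num) (by norm_num))]
    exact ENNReal.ofReal_ne_top
  have h0 : volume (limsup F atTop) = 0 := measure_limsup_atTop_eq_zero hsum
  refine ⟨⋃ N, ⋂ n ≥ N, (F n)ᶜ, ?_, ?_, ?_⟩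
  · exact MeasurableSet.iUnion fun N => MeasurableSet.iInter fun n => MeasurableSet.iInter fun _ =>
      (hE1 _ (hp n)).compl
  · rw [measure_iUnion_null_iff]
    intro N
    have hle : ∀ n ≥ N, ν (⋂ n ≥ N, (F n)ᶜ) ≤ ENNReal.ofReal ((1 / 2 : ℝ) ^ n) := by
      intro n hn
      refine le_trans (measure_mono ?_) (hE2 _ (hp n))
      exact Set.biInter_subset_of_mem hn
    have hlim : Tendsto (fun n : ℕ => ENNReal.ofReal ((1 / 2 : ℝ) ^ n)) atTop (𝓝 0) := by
      rw [← ENNReal.ofReal_zero]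
      exact ENNReal.tendsto_ofReal (tendsto_pow_atTop_nhds_zero_of_lt_one (by norm_num) (by norm_num))
    refine le_antisymm ?_ bot_le
    exact ge_of_tendsto hlim (eventually_atTop.mpr ⟨N, hle⟩)
  · have h1 : (⋃ N, ⋂ n ≥ N, (F n)ᶜ)ᶜ = limsup F atTop := by
      rw [limsup_eq_iInf_iSup_of_nat]
      simp only [Set.compl_iUnion, Set.compl_iInter, compl_compl, Set.iSup_eq_iUnion, Set.iInf_eq_iInter]
    rw [h1]; exact h0

end Crest.Agent.QSalem
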