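import Mathlib

set_option autoImplicit false

open Real Filter Topology

namespace Crest.Agent.QSalem

/-! ### elementary trigonometric estimates -/

lemma one_sub_half_ge_exp {z : ℝ} (h0 : 0 ≤ z) (h1 : z ≤ 1) : exp (-z) ≤ 1 - z / 2 := by
  have h2 : 1 + z ≤ exp z := by linarith [add_one_le_exp z]
  rw [exp_neg]
  have hpos : 0 < 1 + z := by linarith
  calc (exp z)⁻¹ ≤ (1 + z)⁻¹ := inv_anti₀ hpos h2
    _ ≤ 1 - z / 2 := by
      rw [inv_le_iff_one_le_mul₀ hpos]
      nlinarith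

lemma pi_sq_lt : π ^ 2 < 10 := by
  have := pi_lt_d2
  have := pi_pos
  nlinarith

/-- lower bound for the cosine near integers -/
lemma cos_ge_exp {y : ℝ} (hy : |y| ≤ 1 / 4) : exp (-(10 * y ^ 2)) ≤ cos (π * y) := by
  have h1 := one_sub_sq_div_two_le_cos (x := π * y)
  have hy2 : y ^ 2 ≤ 1 / 16 := by
    have := sq_le_sq' (by linarith [(abs_le.mp hy).1]) (abs_le.mp hy).2
    nlinarith
  have h2 : exp (-(10 * y ^ 2)) ≤ 1 - (10 * y ^ 2) / 2 :=
    one_sub_half_ge_exp (by positivity) (by nlinarith)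
  have h3 : (π * y) ^ 2 ≤ 10 * y ^ 2 := by
    rw [mul_pow]; nlinarith [pi_sq_lt, sq_nonneg y]
  linarith

lemma cos_pos_of_small {y : ℝ} (hy : |y| ≤ 1 / 4) : (0.68 : ℝ) ≤ cos (π * y) := by
  have h1 := one_sub_sq_div_two_le_cos (x := π * y)
  have hy2 : y ^ 2 ≤ 1 / 16 := by
    have := sq_le_sq' (by linarith [(abs_le.mp hy).1]) (abs_le.mp hy).2
    nlinarith
  have h3 : (π * y) ^ 2 ≤ 10 * y ^ 2 := by
    rw [mul_pow]; nlinarith [pi_sq_lt, sq_nonneg y]
  linarith

lemma abs_tan_le_of_small {y : ℝ} (hy : |y| ≤ 1 / 4) : |tan (π * y)| ≤ 5 * |y| := by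
  have hc := cos_pos_of_small hy
  have hc0 : 0 < cos (π * y) := by linarith
  rw [tan_eq_sin_div_cos, abs_div, abs_of_pos hc0, div_le_iff₀ hc0]
  have hs : |sin (π * y)| ≤ π * |y| := by
    have := abs_sin_le_abs (x := π * y)
    rwa [abs_mul, abs_of_pos pi_pos] at this
  have := pi_lt_d2
  nlinarith [abs_nonneg y]

lemma abs_cos_int_sub (a : ℤ) (y : ℝ) : |cos (π * (a - y))| = |cos (π * y)| := by
  have : π * (a - y) = a * π - π * y := by ring
  rw [this, cos_int_mul_pi_sub]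
  rw [abs_mul]
  simp

lemma abs_tan_int_sub (a : ℤ) (y : ℝ) : |tan (π * (a - y))| = |tan (π * y)| := by
  have : π * (a - y) = a * π - π * y := by ring
  rw [this, tan_int_mul_pi_sub, abs_neg]

/-- the key identity -/
lemma cos_sub_eq {a b : ℝ} (ha : cos a ≠ 0) (hb : cos b ≠ 0) :
    cos (a - b) = cos a * cos b * (1 + tan a * tan b) := by
  rw [cos_sub, tan_eq_sin_div_cos, tan_eq_sin_div_cos]
  field_simp

lemma cos_add_eq {a b : ℝ} (ha : cos a ≠ 0) (hb : cos b ≠ 0) :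
    cos (a + b) = cos a * cos b * (1 + -(tan a * tan b)) := by
  rw [cos_add, tan_eq_sin_div_cos, tan_eq_sin_div_cos]
  field_simp
  ring

lemma abs_tan_sub_le {a b : ℝ} (ha : cos a ≠ 0) (hb : cos b ≠ 0)
    (h : |tan a| * |tan b| ≤ 1 / 4) :
    |tan (a - b)| ≤ 4 / 3 * (|tan a| + |tan b|) := by
  have hx : |tan a * tan b| ≤ 1 / 4 := by rwa [abs_mul]
  have h1 : 3 / 4 ≤ 1 + tan a * tan b := by linarith [(abs_le.mp hx).1]
  have h2 : tan (a - b) = (tan a - tan b) / (1 + tan a * tan b) := by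
    rw [tan_eq_sin_div_cos (a - b), cos_sub_eq ha hb, sin_sub]
    have : 1 + tan a * tan b ≠ 0 := by linarith
    rw [div_eq_div_iff (mul_ne_zero (mul_ne_zero ha hb) this) this]
    rw [tan_eq_sin_div_cos, tan_eq_sin_div_cos]
    field_simp
  rw [h2, abs_div, abs_of_pos (by linarith : (0 : ℝ) < 1 + tan a * tan b), div_le_iff₀ (by linarith)]
  have h3 : |tan a - tan b| ≤ |tan a| + |tan b| := abs_sub _ _
  nlinarith [abs_nonneg (tan a), abs_nonneg (tan b)]

lemma cos_sub_ne_zero {a b : ℝ} (ha : cos a ≠ 0) (hb : cos b ≠ 0)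
    (h : |tan a| * |tan b| ≤ 1 / 4) : cos (a - b) ≠ 0 := by
  rw [cos_sub_eq ha hb]
  have hx : |tan a * tan b| ≤ 1 / 4 := by rwa [abs_mul]
  have h1 : 3 / 4 ≤ 1 + tan a * tan b := by linarith [(abs_le.mp hx).1]
  exact mul_ne_zero (mul_ne_zero ha hb) (by linarith)

/-! ### sums and products over reflected ranges -/

lemma sum_shift_le (F : ℤ → ℝ) (hF : ∀ j, 0 ≤ F j) (M n : ℕ) :
    ∑ i ∈ Finset.range n, F ((M : ℤ) - i) ≤
      ∑ i ∈ Finset.range M, F ((i : ℤ) + 1) + ∑ i ∈ Finset.range n, F (-(i : ℤ)) := by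
  calc ∑ i ∈ Finset.range n, F ((M : ℤ) - i)
      ≤ ∑ i ∈ Finset.range (M + n), F ((M : ℤ) - i) := by
        refine Finset.sum_le_sum_of_subset_of_nonneg ?_ (fun _ _ _ => hF _)
        intro x; simp only [Finset.mem_range]; omega
    _ = ∑ i ∈ Finset.range M, F ((M : ℤ) - i) + ∑ i ∈ Finset.range n, F (-(i : ℤ)) := by
        rw [Finset.sum_range_add]
        congr 1
        refine Finset.sum_congr rfl fun i _ => ?_
        congr 1; push_cast; ring
    _ = _ := by
        congr 1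
        rw [← Finset.sum_range_reflect]
        refine Finset.sum_congr rfl fun i hi => ?_
        have := Finset.mem_range.mp hi
        congr 1; omega

lemma prod_shift_ge (F : ℤ → ℝ) (hF : ∀ j, 0 ≤ F j) (hF1 : ∀ j, F j ≤ 1) (M n : ℕ) :
    (∏ i ∈ Finset.range M, F ((i : ℤ) + 1)) * ∏ i ∈ Finset.range n, F (-(i : ℤ)) ≤
      ∏ i ∈ Finset.range n, F ((M : ℤ) - i) := by
  calc (∏ i ∈ Finset.range M, F ((i : ℤ) + 1)) * ∏ i ∈ Finset.range n, F (-(i : ℤ))
      = (∏ i ∈ Finset.range M, F ((M : ℤ) - i)) * ∏ i ∈ Finset.range n, F (-(i : ℤ)) := by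
        congr 1
        rw [← Finset.prod_range_reflect]
        refine Finset.prod_congr rfl fun i hi => ?_
        have := Finset.mem_range.mp hi
        congr 1; omega
    _ = ∏ i ∈ Finset.range (M + n), F ((M : ℤ) - i) := by
        rw [Finset.prod_range_add]
        congr 1
        refine Finset.prod_congr rfl fun i _ => ?_
        congr 1; push_cast; ring
    _ = ∏ i ∈ Finset.range (n + M), F ((M : ℤ) - i) := by rw [add_comm]
    _ ≤ ∏ i ∈ Finset.range n, F ((M : ℤ) - i) := by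
        rw [Finset.prod_range_add]
        refine mul_le_of_le_one_right (Finset.prod_nonneg fun _ _ => hF _) ?_
        exact Finset.prod_le_one (fun _ _ => hF _) (fun _ _ => hF1 _)

lemma geom_sum_le {c : ℝ} (h0 : 0 ≤ c) (h1 : c < 1) (n : ℕ) :
    ∑ i ∈ Finset.range n, c ^ i ≤ (1 - c)⁻¹ := by
  rw [← tsum_geometric_of_lt_one h0 h1]
  exact (summable_geometric_of_lt_one h0 h1).sum_le_tsum _ (fun i _ => pow_nonneg h0 i)

end Crest.Agent.QSalem
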