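import Mathlib
import Crest.Agent.QSalem.Basic

set_option autoImplicit false

open Real Filter Topology

namespace Crest.Agent.QSalem

/-- the phases `π U β^j` -/
noncomputable def ang (β U : ℝ) (j : ℤ) : ℝ := π * (U * β ^ j)

structure Level (β : ℝ) (γ : ℂ) (U V : ℝ) (W : ℂ) (J : ℕ) (ω S A : ℝ) : Prop where
  int : ∀ n : ℕ, ∃ a : ℤ, U * β ^ n + V * (β⁻¹) ^ n + 2 * (W * γ ^ n).re = a
  hV : |V| ≤ 1 / 8
  hω : ‖W‖ ≤ ω
  hω' : ω ≤ 1 / 16
  hU1 : 1 ≤ U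
  hUJ : U ≤ β ^ J / 4
  cosne : ∀ i : ℕ, cos (ang β U (-(i : ℤ))) ≠ 0
  hS : ∀ n, ∑ i ∈ Finset.range n, |tan (ang β U (-(i : ℤ)))| ≤ S
  hA : ∀ n, A ≤ ∏ i ∈ Finset.range n, |cos (ang β U (-(i : ℤ)))|
  hA0 : 0 < A

namespace Level

variable {β : ℝ} {γ : ℂ} {U V : ℝ} {W : ℂ} {J : ℕ} {ω S A : ℝ}

section
variable (hβ : 5 / 3 ≤ β) (hγ : ‖γ‖ = 1) (L : Level β γ U V W J ω S A)
include hβ

lemma inv_le : β⁻¹ ≤ 3 / 5 := by
  have : (0 : ℝ) < β := by linarith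
  rw [inv_le_comm₀ this (by norm_num)]
  linarith

lemma inv_nonneg' : 0 ≤ β⁻¹ := by
  have : (0 : ℝ) < β := by linarith
  positivity

lemma inv_lt_one' : β⁻¹ < 1 := by linarith [inv_le hβ]

lemma one_sub_inv : (1 - β⁻¹)⁻¹ ≤ 5 / 2 := by
  have h := inv_le hβ
  rw [inv_le_comm₀ (by linarith) (by norm_num)]
  linarith

lemma geo (n : ℕ) : ∑ i ∈ Finset.range n, β⁻¹ ^ i ≤ 5 / 2 :=
  (geom_sum_le (inv_nonneg' hβ) (inv_lt_one' hβ) n).trans (one_sub_inv hβ)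

include L

omit hβ in
lemma ω_nonneg : 0 ≤ ω := (norm_nonneg W).trans L.hω

omit hβ in
lemma S_nonneg : 0 ≤ S := by simpa using L.hS 0

include hγ in
lemma near (n : ℕ) : ∃ a : ℤ, ∃ y : ℝ, U * β ^ n = a - y ∧ |y| ≤ β⁻¹ ^ n / 8 + 2 * ω := by
  obtain ⟨a, ha⟩ := L.int n
  refine ⟨a, V * (β⁻¹) ^ n + 2 * (W * γ ^ n).re, by linarith, ?_⟩
  have h0 : 0 ≤ β⁻¹ ^ n := pow_nonneg (inv_nonneg' hβ) n
  have h1 : |V * β⁻¹ ^ n| ≤ β⁻¹ ^ n / 8 := by
    rw [abs_mul, abs_of_nonneg h0]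
    have := L.hV
    nlinarith
  have h2 : |2 * (W * γ ^ n).re| ≤ 2 * ω := by
    rw [abs_mul, abs_two]
    have h3 := Complex.abs_re_le_norm (W * γ ^ n)
    rw [norm_mul, norm_pow, hγ, one_pow, mul_one] at h3
    have := L.hω
    linarith
  exact (abs_add_le _ _).trans (add_le_add h1 h2)

lemma near_small (n : ℕ) : β⁻¹ ^ n / 8 + 2 * ω ≤ 1 / 4 := by
  have h0 : β⁻¹ ^ n ≤ 1 := pow_le_one₀ (inv_nonneg' hβ) (inv_lt_one' hβ).le
  have := L.hω'
  linarith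

include hγ in
lemma pos_tan (n : ℕ) : |tan (ang β U n)| ≤ 5 * (β⁻¹ ^ n / 8 + 2 * ω) := by
  obtain ⟨a, y, h1, h2⟩ := L.near hβ hγ n
  have h3 := L.near_small hβ n
  rw [ang, zpow_natCast, h1, abs_tan_int_sub]
  have := abs_tan_le_of_small (h2.trans h3)
  linarith

include hγ in
lemma pos_cos (n : ℕ) : exp (-(10 * (β⁻¹ ^ n / 8 + 2 * ω) ^ 2)) ≤ |cos (ang β U n)| := by
  obtain ⟨a, y, h1, h2⟩ := L.near hβ hγ n
  have h3 := L.near_small hβ n
  rw [ang, zpow_natCast, h1, abs_cos_int_sub]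
  refine le_trans ?_ ((cos_ge_exp (h2.trans h3)).trans (le_abs_self _))
  apply exp_le_exp.mpr
  have : y ^ 2 ≤ (β⁻¹ ^ n / 8 + 2 * ω) ^ 2 := by
    rw [← sq_abs y]
    exact pow_le_pow_left₀ (abs_nonneg y) h2 2
  linarith

include hγ in
lemma cos_ne (j : ℤ) : cos (ang β U j) ≠ 0 := by
  rcases le_total 0 j with h | h
  · lift j to ℕ using h
    have h1 := L.pos_cos hβ hγ j
    have h2 := exp_pos (-(10 * (β⁻¹ ^ j / 8 + 2 * ω) ^ 2))
    exact abs_pos.mp (h2.trans_le h1)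
  · obtain ⟨i, rfl⟩ : ∃ i : ℕ, j = -(i : ℤ) := ⟨j.natAbs, by omega⟩
    exact L.cosne i

lemma neg_tan_small (i : ℕ) (hi : J ≤ i) :
    |tan (ang β U (-(i : ℤ)))| ≤ 5 / 4 * β⁻¹ ^ (i - J) := by
  have hβ0 : (0 : ℝ) < β := by linarith
  have hp : (0 : ℝ) ≤ β⁻¹ ^ i := pow_nonneg (inv_nonneg' hβ) i
  have h1 : U * β ^ (-(i : ℤ)) ≤ β⁻¹ ^ (i - J) / 4 := by
    rw [zpow_neg, zpow_natCast, ← inv_pow]
    calc U * β⁻¹ ^ i ≤ β ^ J / 4 * β⁻¹ ^ i := mul_le_mul_of_nonneg_right L.hUJ hp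
      _ = β⁻¹ ^ (i - J) / 4 := by
        obtain ⟨k, rfl⟩ := Nat.exists_eq_add_of_le hi
        rw [Nat.add_sub_cancel_left, pow_add, inv_pow]
        field_simp
  have h0 : 0 ≤ U * β ^ (-(i : ℤ)) := by
    have := L.hU1
    positivity
  have h2 : β⁻¹ ^ (i - J) ≤ 1 := pow_le_one₀ (inv_nonneg' hβ) (inv_lt_one' hβ).le
  have h3 : |U * β ^ (-(i : ℤ))| ≤ 1 / 4 := by rw [abs_of_nonneg h0]; linarith
  have := abs_tan_le_of_small h3
  rw [abs_of_nonneg h0] at this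
  rw [ang]
  linarith

include hγ in
lemma tan_le (j : ℤ) : |tan (ang β U j)| ≤ S + 2 := by
  have hS0 := L.S_nonneg
  rcases le_total 0 j with h | h
  · lift j to ℕ using h
    have h1 := L.pos_tan hβ hγ j
    have h2 := L.near_small hβ j
    linarith
  · obtain ⟨i, rfl⟩ : ∃ i : ℕ, j = -(i : ℤ) := ⟨j.natAbs, by omega⟩
    have h1 := L.hS (i + 1)
    have h2 : |tan (ang β U (-(i : ℤ)))| ≤ ∑ k ∈ Finset.range (i + 1), |tan (ang β U (-(k : ℤ)))| :=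
      Finset.single_le_sum (f := fun k : ℕ => |tan (ang β U (-(k : ℤ)))|) (fun _ _ => abs_nonneg _)
        (Finset.mem_range.mpr (Nat.lt_succ_self i))
    linarith

include hγ in
/-- lower bound for shifted products -/
lemma prod_ge (N n : ℕ) :
    A * exp (-(1 + 80 * ω ^ 2 * N)) ≤ ∏ i ∈ Finset.range n, |cos (ang β U ((N : ℤ) - i))| := by
  have h1 := prod_shift_ge (fun j => |cos (ang β U j)|) (fun j => abs_nonneg _)
    (fun j => abs_cos_le_one _) N n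
  refine le_trans ?_ h1
  have h2 : exp (-(1 + 80 * ω ^ 2 * N)) ≤ ∏ i ∈ Finset.range N, |cos (ang β U ((i : ℤ) + 1))| := by
    calc exp (-(1 + 80 * ω ^ 2 * N))
        ≤ exp (∑ i ∈ Finset.range N, -(10 * (β⁻¹ ^ (i + 1) / 8 + 2 * ω) ^ 2)) := by
          apply exp_le_exp.mpr
          rw [Finset.sum_neg_distrib, neg_le_neg_iff]
          have h3 : ∀ i ∈ Finset.range N, 10 * (β⁻¹ ^ (i + 1) / 8 + 2 * ω) ^ 2 ≤
              2 / 5 * β⁻¹ ^ i + 80 * ω ^ 2 := by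
            intro i _
            have h4 : 0 ≤ β⁻¹ ^ i := pow_nonneg (inv_nonneg' hβ) i
            have h5 : β⁻¹ ^ i ≤ 1 := pow_le_one₀ (inv_nonneg' hβ) (inv_lt_one' hβ).le
            have h6 := inv_le hβ
            have h7 := inv_nonneg' hβ
            have h8 : 0 ≤ β⁻¹ ^ (i + 1) := pow_nonneg (inv_nonneg' hβ) _
            have h9 : β⁻¹ ^ (i + 1) ≤ β⁻¹ ^ i := by rw [pow_succ]; nlinarith
            have h10 : (β⁻¹ ^ (i + 1)) ^ 2 ≤ β⁻¹ ^ i := by nlinarith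
            nlinarith [sq_nonneg (β⁻¹ ^ (i + 1) / 8 - 2 * ω)]
          refine (Finset.sum_le_sum h3).trans ?_
          rw [Finset.sum_add_distrib, ← Finset.mul_sum]
          have := geo hβ N
          simp only [Finset.sum_const, Finset.card_range, nsmul_eq_mul]
          nlinarith
      _ = ∏ i ∈ Finset.range N, exp (-(10 * (β⁻¹ ^ (i + 1) / 8 + 2 * ω) ^ 2)) := by
          rw [exp_sum]
      _ ≤ _ := by
          refine Finset.prod_le_prod (fun _ _ => (exp_pos _).le) fun i _ => ?_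
          have := L.pos_cos hβ hγ (i + 1)
          exact_mod_cast this
  have h3 := L.hA n
  have h4 := L.hA0
  calc A * exp (-(1 + 80 * ω ^ 2 * N)) = exp (-(1 + 80 * ω ^ 2 * N)) * A := mul_comm _ _
    _ ≤ _ := mul_le_mul h2 h3 h4.le (Finset.prod_nonneg fun _ _ => abs_nonneg _)

include hγ in
lemma sum_le (N n : ℕ) :
    ∑ i ∈ Finset.range n, |tan (ang β U ((N : ℤ) - i))| ≤ 1 + 10 * ω * N + S := by
  have h1 := sum_shift_le (fun j => |tan (ang β U j)|) (fun j => abs_nonneg _) N n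
  refine h1.trans (add_le_add ?_ (L.hS n))
  have h3 : ∀ i ∈ Finset.range N, |tan (ang β U ((i : ℤ) + 1))| ≤ 3 / 8 * β⁻¹ ^ i + 10 * ω := by
    intro i _
    have h4 := L.pos_tan hβ hγ (i + 1)
    have h5 : β⁻¹ ^ (i + 1) ≤ 3 / 5 * β⁻¹ ^ i := by
      rw [pow_succ, mul_comm]
      exact mul_le_mul_of_nonneg_right (inv_le hβ) (pow_nonneg (inv_nonneg' hβ) i)
    push_cast at h4
    linarith
  refine (Finset.sum_le_sum h3).trans ?_
  rw [Finset.sum_add_distrib, ← Finset.mul_sum]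
  have := geo hβ N
  simp only [Finset.sum_const, Finset.card_range, nsmul_eq_mul]
  nlinarith

include hγ in
/-- cross sums, base case -/
lemma cross_zero (l m : ℕ) (hm : J ≤ m) (hl : 2 * m ≤ l) (n : ℕ) :
    ∑ i ∈ Finset.range n, |tan (ang β U ((l : ℤ) - i))| * |tan (ang β U (-(i : ℤ)))| ≤
      10 * S * ω + 8 * (S + 1) * β⁻¹ ^ (m - J) := by
  have hS0 := L.S_nonneg
  have hω0 := L.ω_nonneg
  have hb0 := inv_nonneg' hβ
  have hb1 := (inv_lt_one' hβ).le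
  have hε : 0 ≤ β⁻¹ ^ (m - J) := pow_nonneg hb0 _
  have key : ∀ i : ℕ, |tan (ang β U ((l : ℤ) - i))| * |tan (ang β U (-(i : ℤ)))| ≤
      (10 * ω + 5 / 8 * β⁻¹ ^ (m - J)) * |tan (ang β U (-(i : ℤ)))| +
        (if m ≤ i then (S + 2) * (5 / 4) * β⁻¹ ^ (m - J) * β⁻¹ ^ (i - m) else 0) := by
    intro i
    split_ifs with h
    · have h1 := L.tan_le hβ hγ ((l : ℤ) - i)
      have h2 := L.neg_tan_small hβ i (hm.trans h)
      have h3 : β⁻¹ ^ (i - J) = β⁻¹ ^ (m - J) * β⁻¹ ^ (i - m) := by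
        rw [← pow_add]; congr 1; omega
      rw [h3] at h2
      have h4 : |tan (ang β U ((l : ℤ) - i))| * |tan (ang β U (-(i : ℤ)))| ≤
          (S + 2) * (5 / 4 * (β⁻¹ ^ (m - J) * β⁻¹ ^ (i - m))) :=
        mul_le_mul h1 h2 (abs_nonneg _) (by linarith)
      have h5 : 0 ≤ (10 * ω + 5 / 8 * β⁻¹ ^ (m - J)) * |tan (ang β U (-(i : ℤ)))| := by positivity
      linarith
    · rw [add_zero]
      refine mul_le_mul_of_nonneg_right ?_ (abs_nonneg _)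
      obtain ⟨k, hk⟩ : ∃ k : ℕ, l = k + i := ⟨l - i, by omega⟩
      have h1 := L.pos_tan hβ hγ k
      have h2 : ((l : ℤ) - i) = k := by omega
      rw [h2]
      have h3 : β⁻¹ ^ k ≤ β⁻¹ ^ (m - J) := pow_le_pow_of_le_one hb0 hb1 (by omega)
      linarith
  refine (Finset.sum_le_sum fun i _ => key i).trans ?_
  rw [Finset.sum_add_distrib, ← Finset.mul_sum, Finset.sum_ite, Finset.sum_const_zero, add_zero]
  have h1 := L.hS n
  have h2 : ∑ x ∈ Finset.range n with m ≤ x, (S + 2) * (5 / 4) * β⁻¹ ^ (m - J) * β⁻¹ ^ (x - m) ≤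
      (S + 2) * (5 / 4) * β⁻¹ ^ (m - J) * (5 / 2) := by
    rw [← Finset.mul_sum]
    refine mul_le_mul_of_nonneg_left ?_ (by positivity)
    refine le_trans ?_ (geo hβ n)
    calc ∑ x ∈ Finset.range n with m ≤ x, β⁻¹ ^ (x - m)
        = ∑ y ∈ (Finset.range n |>.filter (fun x => m ≤ x)).image (fun x => x - m), β⁻¹ ^ y := by
          rw [Finset.sum_image]
          intro x hx y hy hxy
          simp only [Finset.coe_filter, Finset.mem_range, Set.mem_ofPred_eq] at hx hy hxy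
          omega
      _ ≤ ∑ y ∈ Finset.range n, β⁻¹ ^ y := by
          refine Finset.sum_le_sum_of_subset_of_nonneg ?_ (fun _ _ _ => pow_nonneg hb0 _)
          intro y hy
          simp only [Finset.mem_image, Finset.mem_filter, Finset.mem_range] at hy ⊢
          omega
  have h3 : (10 * ω + 5 / 8 * β⁻¹ ^ (m - J)) * ∑ i ∈ Finset.range n, |tan (ang β U (-(i : ℤ)))| ≤
      (10 * ω + 5 / 8 * β⁻¹ ^ (m - J)) * S := mul_le_mul_of_nonneg_left h1 (by positivity)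
  nlinarith

include hγ in
/-- cross sums, general base -/
lemma cross (M l m : ℕ) (hm : J ≤ m) (hl : 2 * m ≤ l) (n : ℕ) :
    ∑ i ∈ Finset.range n, |tan (ang β U ((M : ℤ) + l - i))| * |tan (ang β U ((M : ℤ) - i))| ≤
      10 * S * ω + 9 * (S + 1) * β⁻¹ ^ (m - J) + 40 * ω + 100 * ω ^ 2 * M := by
  have hS0 := L.S_nonneg
  have hω0 := L.ω_nonneg
  have hb0 := inv_nonneg' hβ
  have hb1 := (inv_lt_one' hβ).le
  have hε : 0 ≤ β⁻¹ ^ (m - J) := pow_nonneg hb0 _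
  have h1 := sum_shift_le (fun j => |tan (ang β U (j + l))| * |tan (ang β U j)|)
    (fun j => mul_nonneg (abs_nonneg _) (abs_nonneg _)) M n
  have h2 : ∑ i ∈ Finset.range n, |tan (ang β U ((M : ℤ) + l - i))| * |tan (ang β U ((M : ℤ) - i))|
      = ∑ i ∈ Finset.range n, (fun j => |tan (ang β U (j + l))| * |tan (ang β U j)|) ((M : ℤ) - i) := by
    refine Finset.sum_congr rfl fun i _ => ?_
    simp only
    congr 4
    ring
  rw [h2]
  refine h1.trans ?_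
  have h3 := L.cross_zero hβ hγ l m hm hl n
  have h4 : ∑ i ∈ Finset.range n, (fun j => |tan (ang β U (j + l))| * |tan (ang β U j)|) (-(i : ℤ))
      = ∑ i ∈ Finset.range n, |tan (ang β U ((l : ℤ) - i))| * |tan (ang β U (-(i : ℤ)))| := by
    refine Finset.sum_congr rfl fun i _ => ?_
    simp only
    congr 4
    ring
  rw [h4]
  have h5 : ∀ i ∈ Finset.range M, (fun j => |tan (ang β U (j + l))| * |tan (ang β U j)|) ((i : ℤ) + 1)
      ≤ 2 / 5 * β⁻¹ ^ (m - J) * β⁻¹ ^ i + 13 * ω * β⁻¹ ^ i + 100 * ω ^ 2 := by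
    intro i _
    simp only
    have e1 := L.pos_tan hβ hγ (i + 1)
    have e2 := L.pos_tan hβ hγ (i + 1 + l)
    push_cast at e1 e2
    have h6 := inv_le hβ
    have p1 : 0 ≤ β⁻¹ ^ i := pow_nonneg hb0 i
    have p2 : β⁻¹ ^ i ≤ 1 := pow_le_one₀ hb0 hb1
    have p3 : β⁻¹ ^ (i + 1) ≤ β⁻¹ ^ i := pow_le_pow_of_le_one hb0 hb1 (by omega)
    have p4 : β⁻¹ ^ (i + 1 + l) ≤ β⁻¹ ^ (m - J) * β⁻¹ ^ i := by
      rw [← pow_add]; exact pow_le_pow_of_le_one hb0 hb1 (by omega)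
    have p5 : β⁻¹ ^ (m - J) ≤ 1 := pow_le_one₀ hb0 hb1
    have p6 : 0 ≤ β⁻¹ ^ (i + 1) := pow_nonneg hb0 _
    have p7 : 0 ≤ β⁻¹ ^ (i + 1 + l) := pow_nonneg hb0 _
    calc |tan (ang β U ((i : ℤ) + 1 + l))| * |tan (ang β U ((i : ℤ) + 1))|
        ≤ (5 * (β⁻¹ ^ (m - J) * β⁻¹ ^ i / 8 + 2 * ω)) * (5 * (β⁻¹ ^ i / 8 + 2 * ω)) := by
          refine mul_le_mul ?_ ?_ (abs_nonneg _) (by positivity)
          · linarith
          · linarith
      _ ≤ _ := by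
          have q1 : β⁻¹ ^ (m - J) * β⁻¹ ^ i * β⁻¹ ^ i ≤ β⁻¹ ^ (m - J) * β⁻¹ ^ i := by
            have : 0 ≤ β⁻¹ ^ (m - J) * β⁻¹ ^ i := mul_nonneg hε p1
            nlinarith
          have q2 : β⁻¹ ^ (m - J) * β⁻¹ ^ i * ω ≤ β⁻¹ ^ i * ω := by
            have : 0 ≤ β⁻¹ ^ i * ω := mul_nonneg p1 hω0
            nlinarith
          nlinarith [mul_nonneg (mul_nonneg hε p1) hω0, mul_nonneg p1 hω0, mul_nonneg hε p1]
  have h7 := Finset.sum_le_sum h5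
  refine (add_le_add h7 h3).trans ?_
  rw [Finset.sum_add_distrib, Finset.sum_add_distrib, ← Finset.mul_sum, ← Finset.mul_sum]
  have h8 := geo hβ M
  have h9 : 0 ≤ ∑ i ∈ Finset.range M, β⁻¹ ^ i := Finset.sum_nonneg fun _ _ => pow_nonneg hb0 _
  simp only [Finset.sum_const, Finset.card_range, nsmul_eq_mul]
  have h10 : 2 / 5 * β⁻¹ ^ (m - J) * ∑ i ∈ Finset.range M, β⁻¹ ^ i ≤ 2 / 5 * β⁻¹ ^ (m - J) * (5 / 2) :=
    mul_le_mul_of_nonneg_left h8 (by positivity)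
  have h11 : 13 * ω * ∑ i ∈ Finset.range M, β⁻¹ ^ i ≤ 13 * ω * (5 / 2) :=
    mul_le_mul_of_nonneg_left h8 (by positivity)
  nlinarith [mul_nonneg hS0 hε]

end

end Level

end Crest.Agent.QSalem
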