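import Mathlib
import Crest.Agent.QSalem.Level

set_option autoImplicit false

open Real Filter Topology

namespace Crest.Agent.QSalem

lemma abs_prod_one_add_sub_one {x : ℕ → ℝ} {n : ℕ} {η : ℝ}
    (h : ∑ i ∈ Finset.range n, |x i| ≤ η) (hη : η ≤ 1) :
    |∏ i ∈ Finset.range n, (1 + x i) - 1| ≤ 2 * η := by
  have h0 : 0 ≤ ∑ i ∈ Finset.range n, |x i| := Finset.sum_nonneg fun _ _ => abs_nonneg _
  have h1 := Finset.norm_prod_one_add_sub_one_le (Finset.range n) x
  simp only [Real.norm_eq_abs] at h1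
  have h2 := Real.abs_exp_sub_one_le (x := ∑ i ∈ Finset.range n, |x i|)
    (by rw [abs_of_nonneg h0]; linarith)
  rw [abs_of_nonneg h0] at h2
  have h3 := le_abs_self (exp (∑ i ∈ Finset.range n, |x i|) - 1)
  linarith

lemma exp_neg_one_le_half : exp (-1 : ℝ) ≤ 1 / 2 := by
  rw [exp_neg, inv_le_comm₀ (exp_pos _) (by norm_num)]
  have := add_one_le_exp (1 : ℝ)
  norm_num
  linarith

namespace Level

variable {β : ℝ} {γ : ℂ} {U V : ℝ} {W : ℂ} {J : ℕ} {ω S A : ℝ}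

/-- product estimate for differences and sums of two frequencies -/
lemma prod_corr (hβ : 5 / 3 ≤ β) (hγ : ‖γ‖ = 1) (L : Level β γ U V W J ω S A)
    (M l m : ℕ) (hm : J ≤ m) (hl : 2 * m ≤ l) {η : ℝ} (hη1 : η ≤ 1)
    (hη : 10 * S * ω + 9 * (S + 1) * β⁻¹ ^ (m - J) + 40 * ω + 100 * ω ^ 2 * M ≤ η) (n : ℕ) :
    |∏ i ∈ Finset.range n, cos (ang β U ((M : ℤ) + l - i) - ang β U ((M : ℤ) - i))
      - (∏ i ∈ Finset.range n, cos (ang β U ((M : ℤ) + l - i))) *
        (∏ i ∈ Finset.range n, cos (ang β U ((M : ℤ) - i)))| ≤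
      2 * η * |(∏ i ∈ Finset.range n, cos (ang β U ((M : ℤ) + l - i))) *
        (∏ i ∈ Finset.range n, cos (ang β U ((M : ℤ) - i)))| ∧
    |∏ i ∈ Finset.range n, cos (ang β U ((M : ℤ) + l - i) + ang β U ((M : ℤ) - i))
      - (∏ i ∈ Finset.range n, cos (ang β U ((M : ℤ) + l - i))) *
        (∏ i ∈ Finset.range n, cos (ang β U ((M : ℤ) - i)))| ≤
      2 * η * |(∏ i ∈ Finset.range n, cos (ang β U ((M : ℤ) + l - i))) *
        (∏ i ∈ Finset.range n, cos (ang β U ((M : ℤ) - i)))| := by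
  have hX := (L.cross hβ hγ M l m hm hl n).trans hη
  constructor
  · have h1 : ∏ i ∈ Finset.range n, cos (ang β U ((M : ℤ) + l - i) - ang β U ((M : ℤ) - i))
        = (∏ i ∈ Finset.range n, cos (ang β U ((M : ℤ) + l - i))) *
        (∏ i ∈ Finset.range n, cos (ang β U ((M : ℤ) - i))) *
        ∏ i ∈ Finset.range n, (1 + tan (ang β U ((M : ℤ) + l - i)) * tan (ang β U ((M : ℤ) - i))) := by
      rw [← Finset.prod_mul_distrib, ← Finset.prod_mul_distrib]
      refine Finset.prod_congr rfl fun i _ => ?_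
      exact cos_sub_eq (L.cos_ne hβ hγ _) (L.cos_ne hβ hγ _)
    rw [h1]
    have h2 := abs_prod_one_add_sub_one
      (x := fun i => tan (ang β U ((M : ℤ) + l - i)) * tan (ang β U ((M : ℤ) - i)))
      (n := n) (η := η) (by simpa only [abs_mul] using hX) hη1
    rw [← mul_sub_one, abs_mul, mul_comm]
    exact mul_le_mul_of_nonneg_right h2 (abs_nonneg _)
  · have h1 : ∏ i ∈ Finset.range n, cos (ang β U ((M : ℤ) + l - i) + ang β U ((M : ℤ) - i))
        = (∏ i ∈ Finset.range n, cos (ang β U ((M : ℤ) + l - i))) *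
        (∏ i ∈ Finset.range n, cos (ang β U ((M : ℤ) - i))) *
        ∏ i ∈ Finset.range n, (1 + -(tan (ang β U ((M : ℤ) + l - i)) * tan (ang β U ((M : ℤ) - i)))) := by
      rw [← Finset.prod_mul_distrib, ← Finset.prod_mul_distrib]
      refine Finset.prod_congr rfl fun i _ => ?_
      exact cos_add_eq (L.cos_ne hβ hγ _) (L.cos_ne hβ hγ _)
    rw [h1]
    have h2 := abs_prod_one_add_sub_one
      (x := fun i => -(tan (ang β U ((M : ℤ) + l - i)) * tan (ang β U ((M : ℤ) - i))))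
      (n := n) (η := η) (by simpa only [abs_neg, abs_mul] using hX) hη1
    rw [← mul_sub_one, abs_mul, mul_comm]
    exact mul_le_mul_of_nonneg_right h2 (abs_nonneg _)

/-- the inductive step -/
lemma step (hβ : 5 / 3 ≤ β) (hγ : ‖γ‖ = 1) (L : Level β γ U V W J ω S A)
    (l : ℕ) (hl : 4 * J ≤ l) (hl2 : 2 ≤ l)
    (hX : 10 * S * ω + 8 * (S + 1) * β⁻¹ ^ (l / 2 - J) ≤ 1 / 4)
    {ω' S' A' : ℝ} (hω' : ω * ‖γ ^ l - 1‖ ≤ ω') (hω'' : ω' ≤ 1 / 16)
    (hS' : 4 / 3 * (2 * S + 1 + 10 * ω * l) ≤ S')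
    (hA' : A' ≤ A ^ 2 * exp (-(2 + 80 * ω ^ 2 * l))) (hA0' : 0 < A') :
    Level β γ (U * (β ^ l - 1)) (V * (β⁻¹ ^ l - 1)) (W * (γ ^ l - 1)) (J + l) ω' S' A' := by
  have hβ0 : (0 : ℝ) < β := by linarith
  have hω0 := L.ω_nonneg
  have hS0 := L.S_nonneg
  have hcross := fun n => (L.cross_zero hβ hγ l (l / 2) (by omega) (by omega) n).trans hX
  have hang : ∀ j : ℤ, ang β (U * (β ^ l - 1)) j = ang β U (j + l) - ang β U j := by
    intro j
    unfold ang
    rw [zpow_add₀ hβ0.ne', zpow_natCast]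
    ring
  have hang' : ∀ i : ℕ, ang β (U * (β ^ l - 1)) (-(i : ℤ)) =
      ang β U ((l : ℤ) - i) - ang β U (-(i : ℤ)) := by
    intro i
    rw [hang]; congr 2; ring
  have hsingle : ∀ i : ℕ, |tan (ang β U ((l : ℤ) - i))| * |tan (ang β U (-(i : ℤ)))| ≤ 1 / 4 := by
    intro i
    refine le_trans ?_ (hcross (i + 1))
    exact Finset.single_le_sum
      (f := fun i : ℕ => |tan (ang β U ((l : ℤ) - i))| * |tan (ang β U (-(i : ℤ)))|)
      (fun _ _ => mul_nonneg (abs_nonneg _) (abs_nonneg _)) (Finset.mem_range.mpr (Nat.lt_succ_self i))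
  have hβl : 2 ≤ β ^ l := by
    calc (2 : ℝ) ≤ (5 / 3) ^ 2 := by norm_num
      _ ≤ β ^ 2 := pow_le_pow_left₀ (by norm_num) hβ 2
      _ ≤ β ^ l := pow_le_pow_right₀ (by linarith) hl2
  refine ⟨?_, ?_, ?_, hω'', ?_, ?_, ?_, ?_, ?_, hA0'⟩
  · intro n
    obtain ⟨a, ha⟩ := L.int (n + l)
    obtain ⟨b, hb⟩ := L.int n
    refine ⟨a - b, ?_⟩
    push_cast
    rw [← ha, ← hb]
    have e1 : (W * (γ ^ l - 1) * γ ^ n).re = (W * γ ^ (n + l)).re - (W * γ ^ n).re := by
      rw [← Complex.sub_re]; congr 1; ring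
    rw [e1, pow_add, pow_add]
    ring
  · rw [abs_mul]
    have h1 : 0 ≤ β⁻¹ ^ l := pow_nonneg (inv_nonneg' hβ) l
    have h2 : β⁻¹ ^ l ≤ 1 := pow_le_one₀ (inv_nonneg' hβ) (inv_lt_one' hβ).le
    have h3 : |β⁻¹ ^ l - 1| ≤ 1 := by rw [abs_le]; constructor <;> linarith
    have h4 := L.hV
    have h5 := abs_nonneg V
    have h6 := abs_nonneg (β⁻¹ ^ l - 1)
    nlinarith
  · rw [norm_mul]
    exact (mul_le_mul_of_nonneg_right L.hω (norm_nonneg _)).trans hω'
  · have := L.hU1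
    nlinarith
  · rw [pow_add]
    have h1 := L.hUJ
    have h2 := L.hU1
    nlinarith
  · intro i
    rw [hang']
    exact cos_sub_ne_zero (L.cos_ne hβ hγ _) (L.cos_ne hβ hγ _) (hsingle i)
  · intro n
    refine le_trans ?_ hS'
    calc ∑ i ∈ Finset.range n, |tan (ang β (U * (β ^ l - 1)) (-(i : ℤ)))|
        ≤ ∑ i ∈ Finset.range n, 4 / 3 * (|tan (ang β U ((l : ℤ) - i))| + |tan (ang β U (-(i : ℤ)))|) := by
          refine Finset.sum_le_sum fun i _ => ?_
          rw [hang']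
          exact abs_tan_sub_le (L.cos_ne hβ hγ _) (L.cos_ne hβ hγ _) (hsingle i)
      _ ≤ _ := by
          rw [← Finset.mul_sum, Finset.sum_add_distrib]
          have h1 := L.sum_le hβ hγ l n
          have h2 := L.hS n
          linarith
  · intro n
    refine hA'.trans ?_
    have h1 : ∏ i ∈ Finset.range n, |cos (ang β (U * (β ^ l - 1)) (-(i : ℤ)))|
        = (∏ i ∈ Finset.range n, |cos (ang β U ((l : ℤ) - i))|) *
        (∏ i ∈ Finset.range n, |cos (ang β U (-(i : ℤ)))|) *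
        |∏ i ∈ Finset.range n, (1 + tan (ang β U ((l : ℤ) - i)) * tan (ang β U (-(i : ℤ))))| := by
      rw [Finset.abs_prod, ← Finset.prod_mul_distrib, ← Finset.prod_mul_distrib]
      refine Finset.prod_congr rfl fun i _ => ?_
      rw [hang', cos_sub_eq (L.cos_ne hβ hγ _) (L.cos_ne hβ hγ _), abs_mul, abs_mul]
    rw [h1]
    have h2 := abs_prod_one_add_sub_one
      (x := fun i => tan (ang β U ((l : ℤ) - i)) * tan (ang β U (-(i : ℤ))))
      (n := n) (η := 1 / 4) (by simpa only [abs_mul] using hcross n) (by norm_num)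
    have h3 : exp (-1) ≤ |∏ i ∈ Finset.range n, (1 + tan (ang β U ((l : ℤ) - i)) * tan (ang β U (-(i : ℤ))))| := by
      have h4 := (abs_le.mp h2).1
      refine exp_neg_one_le_half.trans (le_trans ?_ (le_abs_self _))
      linarith
    have h5 := L.prod_ge hβ hγ l n
    have h6 := L.hA n
    have h7 := L.hA0
    have h8 : A ^ 2 * exp (-(2 + 80 * ω ^ 2 * l)) = (A * exp (-(1 + 80 * ω ^ 2 * l))) * A * exp (-1) := by
      rw [show -(2 + 80 * ω ^ 2 * (l : ℝ)) = -(1 + 80 * ω ^ 2 * l) + -1 by ring, exp_add]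
      ring
    rw [h8]
    have h9 : 0 < exp (-(1 + 80 * ω ^ 2 * (l : ℝ))) := exp_pos _
    refine mul_le_mul (mul_le_mul h5 h6 h7.le ?_) h3 (exp_pos _).le ?_
    · exact Finset.prod_nonneg fun _ _ => abs_nonneg _
    · exact mul_nonneg (Finset.prod_nonneg fun _ _ => abs_nonneg _) (Finset.prod_nonneg fun _ _ => abs_nonneg _)

end Level

end Crest.Agent.QSalem
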