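import Mathlib
import Crest.Agent.QSalem.Step

set_option autoImplicit false

open Real Filter Topology

namespace Crest.Agent.QSalem

lemma norm_pow_sub_one_le (z : ℂ) (hz : ‖z‖ = 1) (m : ℕ) : ‖z ^ m - 1‖ ≤ m * ‖z - 1‖ := by
  induction m with
  | zero => simp
  | succ m ih =>
    have : z ^ (m + 1) - 1 = z * (z ^ m - 1) + (z - 1) := by ring
    rw [this]
    refine (norm_add_le _ _).trans ?_
    rw [norm_mul, hz, one_mul]
    push_cast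
    linarith

lemma dirichlet (γ : ℂ) (hγ : ‖γ‖ = 1) {ε : ℝ} (h0 : 0 < ε) (h1 : ε ≤ 1) :
    ∃ q : ℕ, 1 ≤ q ∧ (q : ℝ) ≤ 8 / ε ∧ ‖γ ^ q - 1‖ ≤ ε := by
  set n : ℕ := ⌈7 / ε⌉₊ with hn
  have hn1 : 7 / ε ≤ n := Nat.le_ceil _
  have hn2 : (n : ℝ) < 7 / ε + 1 := Nat.ceil_lt_add_one (by positivity)
  have hn0 : 0 < n := Nat.ceil_pos.mpr (by positivity)
  obtain ⟨q, hq0, hqn, hq⟩ := Real.exists_nat_abs_mul_sub_round_le (Complex.arg γ / (2 * π)) hn0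
  refine ⟨q, hq0, ?_, ?_⟩
  · have : (q : ℝ) ≤ n := by exact_mod_cast hqn
    have h2 : 1 ≤ 1 / ε := by rw [le_div_iff₀ h0]; linarith
    have h3 : 8 / ε = 7 / ε + 1 / ε := by ring
    linarith
  · set k : ℤ := round (q * (Complex.arg γ / (2 * π))) with hk
    have hγe : γ = Complex.exp (Complex.I * (Complex.arg γ : ℝ)) := by
      conv_lhs => rw [← Complex.norm_mul_exp_arg_mul_I γ, hγ]
      rw [mul_comm Complex.I]
      simp
    have h4 : γ ^ q = Complex.exp (Complex.I * ((q * Complex.arg γ - k * (2 * π) : ℝ) : ℂ)) := by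
      rw [hγe, ← Complex.exp_nat_mul]
      have : Complex.I * ((q * Complex.arg (Complex.exp (Complex.I * (Complex.arg γ : ℝ))) - k * (2 * π) : ℝ) : ℂ)
        = q * (Complex.I * (Complex.arg γ : ℝ)) - k * (2 * π * Complex.I) := by
        rw [← hγe]
        push_cast
        ring
      rw [this, Complex.exp_sub]
      have h5 : Complex.exp (k * (2 * π * Complex.I)) = 1 := Complex.exp_int_mul_two_pi_mul_I k
      rw [h5, div_one]
    rw [h4]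
    refine Real.norm_exp_I_mul_ofReal_sub_one_le.trans ?_
    rw [Real.norm_eq_abs]
    have h6 : (q * Complex.arg γ - k * (2 * π) : ℝ) = 2 * π * (q * (Complex.arg γ / (2 * π)) - k) := by
      have := pi_pos
      field_simp
    rw [h6, abs_mul, abs_of_pos (by positivity : (0 : ℝ) < 2 * π)]
    have h7 : 2 * π ≤ 7 := by have := pi_lt_d2; linarith
    calc 2 * π * |q * (Complex.arg γ / (2 * π)) - k| ≤ 7 * (1 / (n + 1)) :=
          mul_le_mul h7 hq (abs_nonneg _) (by norm_num)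
      _ ≤ ε := by
          rw [mul_one_div, div_le_iff₀ (by positivity)]
          have : 7 ≤ ε * n := by rw [div_le_iff₀ h0] at hn1; linarith
          nlinarith

lemma exists_min_q (γ : ℂ) (hγ : ‖γ‖ = 1) {ε : ℝ} (h0 : 0 < ε) (h1 : ε ≤ 1) :
    ∃ q : ℕ, 1 ≤ q ∧ (q : ℝ) ≤ 8 / ε ∧ ‖γ ^ q - 1‖ ≤ ε ∧
      ∀ q' : ℕ, 1 ≤ q' → ‖γ ^ q' - 1‖ ≤ ε → q ≤ q' := by
  classical
  obtain ⟨q₀, hq₀, hq₁, hq₂⟩ := dirichlet γ hγ h0 h1
  have hex : ∃ q : ℕ, 1 ≤ q ∧ ‖γ ^ q - 1‖ ≤ ε := ⟨q₀, hq₀, hq₂⟩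
  have hmin := Nat.find_min' hex ⟨hq₀, hq₂⟩
  refine ⟨Nat.find hex, (Nat.find_spec hex).1, ?_, (Nat.find_spec hex).2, ?_⟩
  · refine le_trans ?_ hq₁
    exact_mod_cast hmin
  · intro q' h1 h2
    exact Nat.find_min' hex ⟨h1, h2⟩

/-- the double exponential scale -/
noncomputable def om (r : ℕ) : ℝ := (1 / 4000) * (1 / 5) ^ r * (1 / 20) ^ (3 ^ r)

lemma om_pos (r : ℕ) : 0 < om r := by unfold om; positivity

lemma om_zero : om 0 = 1 / 80000 := by unfold om; norm_num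

lemma om_succ (r : ℕ) : om (r + 1) = 3200000 * 25 ^ r * om r ^ 3 := by
  unfold om
  rw [mul_pow, mul_pow, ← pow_mul, ← pow_mul, pow_succ 3 r, pow_succ (1 / 5 : ℝ) r]
  have : (1 / 5 : ℝ) ^ (r * 3) * 25 ^ r = (1 / 5) ^ r := by
    rw [mul_comm r 3, pow_mul, ← mul_pow]; norm_num
  rw [← this]
  ring

lemma om_succ_le (r : ℕ) : om (r + 1) ≤ om r / 2000 := by
  unfold om
  rw [pow_succ (1 / 5 : ℝ) r, pow_succ 3 r, pow_mul (1 / 20 : ℝ)]
  have h1 : 0 < (1 / 20 : ℝ) ^ (3 ^ r) := by positivity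
  have h2 : (1 / 20 : ℝ) ^ (3 ^ r) ≤ 1 / 20 := by
    calc (1 / 20 : ℝ) ^ (3 ^ r) ≤ (1 / 20) ^ 1 :=
          pow_le_pow_of_le_one (by norm_num) (by norm_num) (Nat.one_le_pow _ _ (by norm_num))
      _ = _ := by norm_num
  have h3 : ((1 / 20 : ℝ) ^ (3 ^ r)) ^ 3 ≤ (1 / 20 : ℝ) ^ (3 ^ r) / 400 := by
    have h4 : ((1 / 20 : ℝ) ^ (3 ^ r)) ^ 2 ≤ (1 / 20) ^ 2 := pow_le_pow_left₀ h1.le h2 2
    calc ((1 / 20 : ℝ) ^ (3 ^ r)) ^ 3 = (1 / 20 : ℝ) ^ (3 ^ r) * ((1 / 20 : ℝ) ^ (3 ^ r)) ^ 2 := by ring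
      _ ≤ (1 / 20 : ℝ) ^ (3 ^ r) * (1 / 20) ^ 2 := mul_le_mul_of_nonneg_left h4 h1.le
      _ = _ := by ring
  have h4 : 0 < (1 / 5 : ℝ) ^ r := by positivity
  calc 1 / 4000 * ((1 / 5) ^ r * (1 / 5)) * ((1 / 20 : ℝ) ^ (3 ^ r)) ^ 3
      ≤ 1 / 4000 * ((1 / 5) ^ r * (1 / 5)) * ((1 / 20 : ℝ) ^ (3 ^ r) / 400) :=
        mul_le_mul_of_nonneg_left h3 (by positivity)
    _ = _ := by ring

lemma om_le (r : ℕ) : om r ≤ 1 / 80000 := by
  induction r with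
  | zero => rw [om_zero]
  | succ r ih =>
    have := om_succ_le r
    have := om_pos r
    linarith

/-- the Dirichlet thresholds -/
noncomputable def ep (r : ℕ) : ℝ := 8 * 5 ^ (r + 4) * om r ^ 2

lemma ep_pos (r : ℕ) : 0 < ep r := by unfold ep; have := om_pos r; positivity

lemma om_le_pow (r : ℕ) : om r ≤ (1 / 80000) * (1 / 5) ^ r := by
  induction r with
  | zero => rw [om_zero]; norm_num
  | succ r ih =>
    have h1 := om_succ_le r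
    have h2 := om_pos r
    rw [pow_succ]
    linarith

lemma ep_le_one (r : ℕ) : ep r ≤ 1 := by
  unfold ep
  have h1 := om_le_pow r
  have h2 := om_le r
  have h3 := om_pos r
  have h4 : (5 : ℝ) ^ r * (1 / 5) ^ r = 1 := by rw [← mul_pow]; norm_num
  have h5 : (0 : ℝ) < 5 ^ r := by positivity
  have h6 : 5 ^ r * om r ≤ 1 / 80000 := by
    calc 5 ^ r * om r ≤ 5 ^ r * ((1 / 80000) * (1 / 5) ^ r) := mul_le_mul_of_nonneg_left h1 h5.le
      _ = 1 / 80000 * (5 ^ r * (1 / 5) ^ r) := by ring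
      _ = _ := by rw [h4]; norm_num
  calc 8 * 5 ^ (r + 4) * om r ^ 2 = 5000 * (5 ^ r * om r) * om r := by ring
    _ ≤ 5000 * (1 / 80000) * (1 / 80000) := by
        refine mul_le_mul (mul_le_mul_of_nonneg_left h6 (by norm_num)) h2 h3.le (by norm_num)
    _ ≤ 1 := by norm_num

lemma ep_anti (r : ℕ) : ep (r + 1) ≤ ep r := by
  unfold ep
  have h1 := om_succ_le r
  have h2 := om_pos r
  have h3 := om_pos (r + 1)
  have h4 : om (r + 1) ^ 2 ≤ (om r / 2000) ^ 2 := pow_le_pow_left₀ h3.le h1 2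
  have h5 : (0 : ℝ) < 5 ^ (r + 4) := by positivity
  calc 8 * 5 ^ (r + 1 + 4) * om (r + 1) ^ 2 = 8 * 5 ^ (r + 4) * (5 * om (r + 1) ^ 2) := by ring
    _ ≤ 8 * 5 ^ (r + 4) * om r ^ 2 := by
        refine mul_le_mul_of_nonneg_left ?_ (by positivity)
        nlinarith [sq_nonneg (om r)]

lemma tail_small {β : ℝ} (hβ : 5 / 3 ≤ β) (r k : ℕ) (hk : 150 * 5 ^ r ≤ k) :
    β⁻¹ ^ k ≤ om r / 160 := by
  have hb0 := Level.inv_nonneg' hβ
  have hb := Level.inv_le hβ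
  have hb1 := (Level.inv_lt_one' hβ).le
  calc β⁻¹ ^ k ≤ β⁻¹ ^ (150 * 5 ^ r) := pow_le_pow_of_le_one hb0 hb1 hk
    _ ≤ (3 / 5) ^ (150 * 5 ^ r) := pow_le_pow_left₀ hb0 hb _
    _ = ((3 / 5) ^ 15) ^ (10 * 5 ^ r) := by rw [← pow_mul]; congr 1; ring
    _ ≤ (1 / 20) ^ (10 * 5 ^ r) := pow_le_pow_left₀ (by norm_num) (by norm_num) _
    _ ≤ (1 / 20) ^ (3 ^ r + r + 5) := by
        refine pow_le_pow_of_le_one (by norm_num) (by norm_num) ?_
        have h1 : 3 ^ r ≤ 5 ^ r := Nat.pow_le_pow_left (by norm_num) r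
        have h2 : r < 5 ^ r := Nat.lt_pow_self (by norm_num)
        omega
    _ = (1 / 20) ^ (3 ^ r) * (1 / 20) ^ r * (1 / 20) ^ 5 := by rw [pow_add, pow_add]
    _ ≤ (1 / 20) ^ (3 ^ r) * (1 / 5) ^ r * (1 / 640000) := by
        refine mul_le_mul (mul_le_mul_of_nonneg_left ?_ (by positivity)) (by norm_num) (by norm_num) (by positivity)
        exact pow_le_pow_left₀ (by norm_num) (by norm_num) _
    _ = om r / 160 := by unfold om; ring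

noncomputable def kap : ℝ := exp (-82)

lemma kap_pos : 0 < kap := exp_pos _

/-- One step of the tower -/
lemma tower_step {β : ℝ} {γ : ℂ} (hβ : 5 / 3 ≤ β) (hγ : ‖γ‖ = 1) (r : ℕ)
    {U V : ℝ} {W : ℂ} {J : ℕ} {S A : ℝ} (L : Level β γ U V W J (om r) S A)
    (hS : S * om r ≤ 1 / 50)
    (hJ : ∀ q : ℕ, 1 ≤ q → ‖γ ^ q - 1‖ ≤ ep r → 4 * J ≤ 5 ^ (r + 4) * q) :
    ∃ (U' V' : ℝ) (W' : ℂ) (J' : ℕ),
      Level β γ U' V' W' J' (om (r + 1)) (14 / om r) (kap * A ^ 2) ∧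
      (J' : ℝ) ≤ 2 / om r ^ 2 ∧
      ∀ q : ℕ, 1 ≤ q → ‖γ ^ q - 1‖ ≤ ep (r + 1) → 4 * J' ≤ 5 ^ (r + 5) * q := by
  have hω := om_pos r
  have hωle := om_le r
  have hS0 := L.S_nonneg
  have hε := ep_pos r
  obtain ⟨q, hq1, hq2, hq3, hq4⟩ := exists_min_q γ hγ hε (ep_le_one r)
  set l : ℕ := 5 ^ (r + 4) * q with hl
  have hl4 : 4 * J ≤ l := hJ q hq1 hq3
  have h5 : 1 ≤ 5 ^ r := Nat.one_le_pow _ _ (by norm_num)
  have hlbig : 625 * 5 ^ r ≤ l := by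
    calc 625 * 5 ^ r = 5 ^ (r + 4) * 1 := by ring
      _ ≤ 5 ^ (r + 4) * q := Nat.mul_le_mul_left _ hq1
  have hl2 : 2 ≤ l := by omega
  have hlR : (l : ℝ) = 5 ^ (r + 4) * q := by rw [hl]; push_cast; ring
  have h5p : (0 : ℝ) < 5 ^ (r + 4) := by positivity
  -- ω² l ≤ 1
  have hωl : om r ^ 2 * l ≤ 1 := by
    rw [hlR]
    have : (q : ℝ) * ep r ≤ 8 := by rwa [le_div_iff₀ hε] at hq2
    unfold ep at this
    nlinarith
  have hγl : ‖γ ^ l - 1‖ ≤ 5 ^ (r + 4) * ep r := by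
    have h1 : γ ^ l = (γ ^ q) ^ (5 ^ (r + 4)) := by rw [← pow_mul]; congr 1; rw [hl]; ring
    have h2 := norm_pow_sub_one_le (γ ^ q) (by rw [norm_pow, hγ, one_pow]) (5 ^ (r + 4))
    rw [h1]
    refine h2.trans ?_
    push_cast
    exact mul_le_mul_of_nonneg_left hq3 h5p.le
  have hω' : om r * ‖γ ^ l - 1‖ ≤ om (r + 1) := by
    refine (mul_le_mul_of_nonneg_left hγl hω.le).trans ?_
    rw [om_succ]
    unfold ep
    have h3 : (0 : ℝ) < 25 ^ r * om r ^ 3 := by positivity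
    calc om r * (5 ^ (r + 4) * (8 * 5 ^ (r + 4) * om r ^ 2)) = 3125000 * ((5 ^ r * 5 ^ r) * om r ^ 3) := by ring
      _ = 3125000 * (25 ^ r * om r ^ 3) := by rw [← mul_pow]; norm_num
      _ ≤ 3200000 * (25 ^ r * om r ^ 3) := by nlinarith
      _ = _ := by ring
  have hω'' : om (r + 1) ≤ 1 / 16 := (om_le (r + 1)).trans (by norm_num)
  have hSω : S + 1 ≤ 1 / om r := by
    rw [le_div_iff₀ hω]
    nlinarith
  have hX : 10 * S * om r + 8 * (S + 1) * β⁻¹ ^ (l / 2 - J) ≤ 1 / 4 := by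
    have h1 := tail_small hβ r (l / 2 - J) (by omega)
    have h2 : 0 ≤ β⁻¹ ^ (l / 2 - J) := pow_nonneg (Level.inv_nonneg' hβ) _
    have h3 : 8 * (S + 1) * β⁻¹ ^ (l / 2 - J) ≤ 8 * (1 / om r) * (om r / 160) :=
      mul_le_mul (by linarith) h1 h2 (by positivity)
    have h4 : 8 * (1 / om r) * (om r / 160) = 1 / 20 := by field_simp; norm_num
    linarith
  have hωl' : om r * l ≤ 1 / om r := by
    rw [le_div_iff₀ hω]; nlinarith
  have hS' : 4 / 3 * (2 * S + 1 + 10 * om r * l) ≤ 14 / om r := by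
    have e1 : S ≤ 1 / 50 / om r := by rw [le_div_iff₀ hω]; exact hS
    have e2 : (1 : ℝ) ≤ 1 / 16 / om r := by rw [le_div_iff₀ hω]; linarith
    have e3 : 4 / 3 * (2 * S + 1 + 10 * om r * l) ≤
        4 / 3 * (2 * (1 / 50 / om r) + 1 / 16 / om r + 10 * (1 / om r)) := by linarith
    refine e3.trans ?_
    rw [show 4 / 3 * (2 * (1 / 50 / om r) + 1 / 16 / om r + 10 * (1 / om r)) =
      (4 / 3 * (2 * (1 / 50) + 1 / 16 + 10)) / om r by ring]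
    exact div_le_div_of_nonneg_right (by norm_num) hω.le
  have hA' : kap * A ^ 2 ≤ A ^ 2 * exp (-(2 + 80 * om r ^ 2 * l)) := by
    rw [mul_comm]
    refine mul_le_mul_of_nonneg_left ?_ (sq_nonneg A)
    unfold kap
    apply exp_le_exp.mpr
    nlinarith
  have hA0' : 0 < kap * A ^ 2 := by have := L.hA0; have := kap_pos; positivity
  refine ⟨_, _, _, _, L.step hβ hγ l hl4 hl2 hX hω' hω'' hS' hA' hA0', ?_, ?_⟩
  · rw [le_div_iff₀ (by positivity)]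
    have : (4 * J : ℝ) ≤ l := by exact_mod_cast hl4
    push_cast
    nlinarith [sq_nonneg (om r)]
  · intro q' h1 h2
    have h3 : q ≤ q' := hq4 q' h1 (h2.trans (ep_anti r))
    have h4 : 5 ^ (r + 5) * q ≤ 5 ^ (r + 5) * q' := Nat.mul_le_mul_left _ h3
    have h6 : 5 ^ (r + 5) * q = 5 * l := by rw [hl]; ring
    omega

/-- the tower -/
lemma tower {β : ℝ} {γ : ℂ} (hβ : 5 / 3 ≤ β) (hγ : ‖γ‖ = 1)
    {U V : ℝ} {W : ℂ} {J : ℕ} {S A : ℝ} (L : Level β γ U V W J (om 0) S A)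
    (hS : S * om 0 ≤ 1 / 50) (hJ : J ≤ 156) (r : ℕ) :
    ∃ (U' V' : ℝ) (W' : ℂ) (J' : ℕ) (S' : ℝ),
      Level β γ U' V' W' J' (om r) S' ((kap * A) ^ (2 ^ r) / kap) ∧ S' * om r ≤ 1 / 50 ∧
      ∀ q : ℕ, 1 ≤ q → ‖γ ^ q - 1‖ ≤ ep r → 4 * J' ≤ 5 ^ (r + 4) * q := by
  have hk := kap_pos
  induction r with
  | zero =>
    refine ⟨U, V, W, J, S, ?_, hS, ?_⟩
    · have : (kap * A) ^ (2 ^ 0) / kap = A := by rw [pow_zero, pow_one]; field_simp
      rwa [this]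
    · intro q hq _
      norm_num
      omega
  | succ r ih =>
    obtain ⟨U', V', W', J', S', hL, hS', hJ'⟩ := ih
    obtain ⟨U'', V'', W'', J'', hL'', _, hJ''⟩ := tower_step hβ hγ r hL hS' hJ'
    refine ⟨U'', V'', W'', J'', 14 / om r, ?_, ?_, hJ''⟩
    · have : kap * ((kap * A) ^ (2 ^ r) / kap) ^ 2 = (kap * A) ^ (2 ^ (r + 1)) / kap := by
        rw [div_pow, pow_succ 2 r, pow_mul]; field_simp
      rwa [this] at hL''
    · have h1 := om_succ_le r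
      have h2 := om_pos r
      rw [div_mul_eq_mul_div, div_le_iff₀ h2]
      linarith

/-- the tower with the strong bounds -/
lemma tower_strong {β : ℝ} {γ : ℂ} (hβ : 5 / 3 ≤ β) (hγ : ‖γ‖ = 1)
    {U V : ℝ} {W : ℂ} {J : ℕ} {S A : ℝ} (L : Level β γ U V W J (om 0) S A)
    (hS : S * om 0 ≤ 1 / 50) (hJ : J ≤ 156) (r : ℕ) :
    ∃ (U' V' : ℝ) (W' : ℂ) (J' : ℕ),
      Level β γ U' V' W' J' (om (r + 1)) (14 / om r) ((kap * A) ^ (2 ^ (r + 1)) / kap) ∧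
      (J' : ℝ) ≤ 2 / om r ^ 2 := by
  have hk := kap_pos
  obtain ⟨U', V', W', J', S', hL, hS', hJ'⟩ := tower hβ hγ L hS hJ r
  obtain ⟨U'', V'', W'', J'', hL'', h2, _⟩ := tower_step hβ hγ r hL hS' hJ'
  refine ⟨U'', V'', W'', J'', ?_, h2⟩
  have : kap * ((kap * A) ^ (2 ^ r) / kap) ^ 2 = (kap * A) ^ (2 ^ (r + 1)) / kap := by
    rw [div_pow, pow_succ 2 r, pow_mul]; field_simp
  rwa [this] at hL''

end Crest.Agent.QSalem
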