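import Mathlib
import Crest.Agent.QSalem.Tower
import Crest.Agent.QSalem.SecondMoment
import Crest.Agent.QSalem.CharFun

set_option autoImplicit false

open Real Filter Topology MeasureTheory
open Crest.AnalysisR

namespace Crest.Agent.QSalem

/-- the Fourier transform -/
noncomputable def FT (β t : ℝ) : ℝ := ∫ x, cos (t * x) ∂(bernoulliConvolution β⁻¹)

lemma tendsto_FT {β : ℝ} (hβ : 5 / 3 ≤ β) (t : ℝ) : Tendsto (Ph β⁻¹ t) atTop (𝓝 (FT β t)) :=
  tendsto_Ph (Level.inv_nonneg' hβ) (Level.inv_lt_one' hβ) t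

/-- frequencies -/
noncomputable def fr (β U : ℝ) (N : ℕ) : ℝ := π * (U * β ^ N)

lemma fr_mul {β : ℝ} (hβ : 5 / 3 ≤ β) (U : ℝ) (N i : ℕ) :
    fr β U N * β⁻¹ ^ i = ang β U ((N : ℤ) - i) := by
  have hβ0 : β ≠ 0 := by linarith
  unfold fr ang
  rw [zpow_sub₀ hβ0, zpow_natCast, zpow_natCast, inv_pow]
  field_simp

lemma Ph_fr {β : ℝ} (hβ : 5 / 3 ≤ β) (U : ℝ) (N n : ℕ) :
    Ph β⁻¹ (fr β U N) n = ∏ i ∈ Finset.range n, cos (ang β U ((N : ℤ) - i)) := by
  unfold Ph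
  refine Finset.prod_congr rfl fun i _ => ?_
  rw [fr_mul hβ]

lemma Ph_fr_sub {β : ℝ} (hβ : 5 / 3 ≤ β) (U : ℝ) (M l n : ℕ) :
    Ph β⁻¹ (fr β U (M + l) - fr β U M) n =
      ∏ i ∈ Finset.range n, cos (ang β U ((M : ℤ) + l - i) - ang β U ((M : ℤ) - i)) := by
  unfold Ph
  refine Finset.prod_congr rfl fun i _ => ?_
  rw [sub_mul, fr_mul hβ, fr_mul hβ]
  push_cast
  rfl

lemma Ph_fr_add {β : ℝ} (hβ : 5 / 3 ≤ β) (U : ℝ) (M l n : ℕ) :
    Ph β⁻¹ (fr β U (M + l) + fr β U M) n =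
      ∏ i ∈ Finset.range n, cos (ang β U ((M : ℤ) + l - i) + ang β U ((M : ℤ) - i)) := by
  unfold Ph
  refine Finset.prod_congr rfl fun i _ => ?_
  rw [add_mul, fr_mul hβ, fr_mul hβ]
  push_cast
  rfl

section
variable {β : ℝ} {γ : ℂ} {U V : ℝ} {W : ℂ} {J : ℕ} {ω S A : ℝ}

lemma FT_ge (hβ : 5 / 3 ≤ β) (hγ : ‖γ‖ = 1) (L : Level β γ U V W J ω S A) (N : ℕ) :
    A * exp (-(1 + 80 * ω ^ 2 * N)) ≤ |FT β (fr β U N)| := by
  refine ge_of_tendsto' ((tendsto_FT hβ (fr β U N)).abs) fun n => ?_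
  rw [Ph_fr hβ, Finset.abs_prod]
  exact L.prod_ge hβ hγ N n

lemma FT_corr (hβ : 5 / 3 ≤ β) (hγ : ‖γ‖ = 1) (L : Level β γ U V W J ω S A)
    (M l m : ℕ) (hm : J ≤ m) (hl : 2 * m ≤ l) {η : ℝ} (hη1 : η ≤ 1)
    (hη : 10 * S * ω + 9 * (S + 1) * β⁻¹ ^ (m - J) + 40 * ω + 100 * ω ^ 2 * M ≤ η) :
    |FT β (fr β U (M + l) - fr β U M) - FT β (fr β U (M + l)) * FT β (fr β U M)| ≤
      2 * η * |FT β (fr β U (M + l)) * FT β (fr β U M)| ∧
    |FT β (fr β U (M + l) + fr β U M) - FT β (fr β U (M + l)) * FT β (fr β U M)| ≤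
      2 * η * |FT β (fr β U (M + l)) * FT β (fr β U M)| := by
  have h := L.prod_corr hβ hγ M l m hm hl hη1 hη
  have hN : ∀ n, ∏ i ∈ Finset.range n, cos (ang β U ((M : ℤ) + l - i)) = Ph β⁻¹ (fr β U (M + l)) n := by
    intro n; rw [Ph_fr hβ]; push_cast; rfl
  have h1 := tendsto_FT hβ (fr β U (M + l))
  have h2 := tendsto_FT hβ (fr β U M)
  have h3 := tendsto_FT hβ (fr β U (M + l) - fr β U M)
  have h4 := tendsto_FT hβ (fr β U (M + l) + fr β U M)
  constructor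
  · refine le_of_tendsto_of_tendsto' ((h3.sub (h1.mul h2)).abs) (((h1.mul h2).abs).const_mul (2 * η)) fun n => ?_
    have := (h n).1
    rwa [hN, ← Ph_fr hβ, ← Ph_fr_sub hβ] at this
  · refine le_of_tendsto_of_tendsto' ((h4.sub (h1.mul h2)).abs) (((h1.mul h2).abs).const_mul (2 * η)) fun n => ?_
    have := (h n).2
    rwa [hN, ← Ph_fr hβ, ← Ph_fr_add hβ] at this

lemma FT_neg (t : ℝ) : FT β (-t) = FT β t := by
  unfold FT
  refine integral_congr_ae (ae_of_all _ fun x => ?_)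
  simp only
  rw [neg_mul, cos_neg]

lemma fr_gap (hβ : 5 / 3 ≤ β) (hU : 1 ≤ U) (G : ℕ) (hG : 2 ≤ G) (j d : ℕ) (hd : 1 ≤ d) :
    β ^ G ≤ fr β U ((j + 1) * G + d * G) - fr β U ((j + 1) * G) := by
  unfold fr
  have hβ1 : 1 ≤ β := by linarith
  have h1 : β ^ G ≤ β ^ ((j + 1) * G) := pow_le_pow_right₀ hβ1 (Nat.le_mul_of_pos_left _ (by omega))
  have h2 : (2 : ℝ) ≤ β ^ (d * G) := by
    calc (2 : ℝ) ≤ (5 / 3) ^ 2 := by norm_num
      _ ≤ β ^ 2 := pow_le_pow_left₀ (by norm_num) hβ 2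
      _ ≤ β ^ (d * G) := pow_le_pow_right₀ hβ1 (hG.trans (Nat.le_mul_of_pos_left _ (by omega)))
  have h3 : (0 : ℝ) < β ^ G := by positivity
  have hpi : 1 ≤ π := by linarith [pi_gt_three]
  rw [pow_add]
  have h4 : β ^ G ≤ U * (β ^ ((j + 1) * G) * (β ^ (d * G) - 1)) := by
    have h5 : β ^ ((j + 1) * G) ≤ β ^ ((j + 1) * G) * (β ^ (d * G) - 1) := by
      have : 0 < β ^ ((j + 1) * G) := by positivity
      nlinarith
    have h6 : 0 < β ^ ((j + 1) * G) * (β ^ (d * G) - 1) := by nlinarith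
    nlinarith
  calc β ^ G ≤ U * (β ^ ((j + 1) * G) * (β ^ (d * G) - 1)) := h4
    _ ≤ π * (U * (β ^ ((j + 1) * G) * (β ^ (d * G) - 1))) := by
        nlinarith
    _ = _ := by ring

lemma fr_pos (hβ : 5 / 3 ≤ β) (hU : 1 ≤ U) (N : ℕ) : 0 < fr β U N := by
  unfold fr
  have : 0 < β := by linarith
  have := pi_pos
  positivity

/-- the final phase at a given level -/
lemma final_level (hβ : 5 / 3 ≤ β) (hγ : ‖γ‖ = 1) (L : Level β γ U V W J ω S A)
    {M G m : ℕ} (hM : 0 < M) (hG2 : 2 ≤ G) (hm : J ≤ m) (hG : 2 * m ≤ G) {η : ℝ} (hη1 : η ≤ 1)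
    (hη : 10 * S * ω + 9 * (S + 1) * β⁻¹ ^ (m - J) + 40 * ω + 100 * ω ^ 2 * (M * G) ≤ η)
    {Ā : ℝ} (hĀ : Ā ≤ A * exp (-(1 + 80 * ω ^ 2 * (M * G)))) (hĀ0 : 0 < Ā) :
    ∃ E : Set ℝ, MeasurableSet E ∧
      (bernoulliConvolution β⁻¹) Eᶜ ≤ ENNReal.ofReal (4 * (1 / (M * Ā ^ 2) + 2 * η)) ∧
      volume E ≤ ENNReal.ofReal (8 * ((1 - β⁻¹)⁻¹ / (M * Ā ^ 2) + 1 / (β ^ G * Ā ^ 2))) := by
  have hω0 := L.ω_nonneg
  have hS0 := L.S_nonneg
  have hb0 := Level.inv_nonneg' hβ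
  have hb1 := Level.inv_lt_one' hβ
  haveI := isProb_bernoulli hb0 hb1
  have hβ0 : 0 < β := by linarith
  have hη0 : 0 ≤ η := by
    refine le_trans ?_ hη
    have := pow_nonneg hb0 (m - J)
    positivity
  -- correlation for j < k
  have hcorr : ∀ j k : ℕ, j < k → k < M →
      |FT β (fr β U ((k + 1) * G) - fr β U ((j + 1) * G)) - FT β (fr β U ((k + 1) * G)) * FT β (fr β U ((j + 1) * G))| ≤
        2 * η * |FT β (fr β U ((k + 1) * G)) * FT β (fr β U ((j + 1) * G))| ∧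
      |FT β (fr β U ((k + 1) * G) + fr β U ((j + 1) * G)) - FT β (fr β U ((k + 1) * G)) * FT β (fr β U ((j + 1) * G))| ≤
        2 * η * |FT β (fr β U ((k + 1) * G)) * FT β (fr β U ((j + 1) * G))| := by
    intro j k hjk hkM
    obtain ⟨d, rfl⟩ := Nat.exists_eq_add_of_lt hjk
    have h1 : (j + d + 1 + 1) * G = (j + 1) * G + (d + 1) * G := by ring
    rw [h1]
    refine FT_corr hβ hγ L ((j + 1) * G) ((d + 1) * G) m hm ?_ hη1 (le_trans ?_ hη)
    · exact hG.trans (Nat.le_mul_of_pos_left _ (by omega))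
    · have h2 : (((j + 1) * G : ℕ) : ℝ) ≤ M * G := by
        have : (j + 1) * G ≤ M * G := Nat.mul_le_mul_right _ (by omega)
        exact_mod_cast this
      have h3 : 100 * ω ^ 2 * (((j + 1) * G : ℕ) : ℝ) ≤ 100 * ω ^ 2 * (M * G) :=
        mul_le_mul_of_nonneg_left h2 (by positivity)
      linarith
  have hgap : ∀ j k : ℕ, j < k → β ^ G ≤ fr β U ((k + 1) * G) - fr β U ((j + 1) * G) := by
    intro j k hjk
    obtain ⟨d, rfl⟩ := Nat.exists_eq_add_of_lt hjk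
    have h1 : (j + d + 1 + 1) * G = (j + 1) * G + (d + 1) * G := by ring
    rw [h1]
    exact fr_gap hβ L.hU1 G hG2 j (d + 1) (by omega)
  have hpos := fr_pos hβ L.hU1
  refine second_moment (ν := bernoulliConvolution β⁻¹) (B := (1 - β⁻¹)⁻¹)
    (inv_nonneg.mpr (by linarith)) (bernoulli_support hb0 hb1)
    (fun k => fr β U ((k + 1) * G)) hM hĀ0 hη0 (by positivity : (0 : ℝ) < β ^ G) ?_ ?_ ?_ ?_ ?_
  · intro k hk
    refine le_trans ?_ (FT_ge hβ hγ L ((k + 1) * G))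
    refine hĀ.trans ?_
    refine mul_le_mul_of_nonneg_left ?_ L.hA0.le
    apply exp_le_exp.mpr
    have h2 : (((k + 1) * G : ℕ) : ℝ) ≤ M * G := by
      have : (k + 1) * G ≤ M * G := Nat.mul_le_mul_right _ (by omega)
      exact_mod_cast this
    have h3 : 80 * ω ^ 2 * (((k + 1) * G : ℕ) : ℝ) ≤ 80 * ω ^ 2 * (M * G) :=
      mul_le_mul_of_nonneg_left h2 (by positivity)
    linarith
  · intro k hk j hj hkj
    rcases lt_or_gt_of_ne hkj with h | h
    · have := (hcorr k j h hj).1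
      have e1 : ∫ x, cos ((fr β U ((k + 1) * G) - fr β U ((j + 1) * G)) * x) ∂(bernoulliConvolution β⁻¹)
          = FT β (fr β U ((j + 1) * G) - fr β U ((k + 1) * G)) := by
        rw [← FT_neg, neg_sub]; rfl
      rw [e1, mul_comm (∫ x, cos (fr β U ((k + 1) * G) * x) ∂(bernoulliConvolution β⁻¹))]
      exact this
    · exact (hcorr j k h hk).1
  · intro k hk j hj hkj
    rcases lt_or_gt_of_ne hkj with h | h
    · have := (hcorr k j h hj).2
      rw [add_comm (fr β U ((k + 1) * G)), mul_comm (∫ x, cos (fr β U ((k + 1) * G) * x) ∂(bernoulliConvolution β⁻¹))]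
      exact this
    · exact (hcorr j k h hk).2
  · intro k hk j hj hkj
    rcases lt_or_gt_of_ne hkj with h | h
    · rw [abs_sub_comm]
      exact (hgap k j h).trans (le_abs_self _)
    · exact (hgap j k h).trans (le_abs_self _)
  · intro k hk j hj hkj
    have p1 := hpos ((k + 1) * G)
    have p2 := hpos ((j + 1) * G)
    rcases lt_or_gt_of_ne hkj with h | h
    · have := hgap k j h
      exact le_trans (by linarith) (le_abs_self _)
    · have := hgap j k h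
      exact le_trans (by linarith) (le_abs_self _)

end

/-- asymptotics of the tower -/
lemma exists_level {α : ℝ} (hα : 0 < α) {ζ : ℝ} (hζ : 0 < ζ) :
    ∃ r : ℕ, 25 ^ r * om r ≤ ζ ∧ om (r + 1) ≤ ζ * α ^ (2 ^ (r + 2)) := by
  have h1 : Tendsto (fun r : ℕ => (1 / 4 : ℝ) ^ r) atTop (𝓝 0) :=
    tendsto_pow_atTop_nhds_zero_of_lt_one (by norm_num) (by norm_num)
  have h2 : Tendsto (fun r : ℕ => (1 / 2 : ℝ) ^ r) atTop (𝓝 0) :=
    tendsto_pow_atTop_nhds_zero_of_lt_one (by norm_num) (by norm_num)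
  obtain ⟨n0, hn0⟩ : ∃ n0 : ℕ, (1 / 20 : ℝ) ^ n0 < α ^ 2 / 2 :=
    exists_pow_lt_of_lt_one (by positivity) (by norm_num)
  have h3 : Tendsto (fun r : ℕ => (3 / 2 : ℝ) ^ r) atTop atTop :=
    tendsto_pow_atTop_atTop_of_one_lt (by norm_num)
  have e1 := h1.eventually (gt_mem_nhds hζ)
  have e2 := h2.eventually (gt_mem_nhds hζ)
  have e3 := h3.eventually (eventually_ge_atTop (n0 : ℝ))
  obtain ⟨r, hr1, hr2, hr3⟩ := (e1.and (e2.and e3)).exists
  refine ⟨r, ?_, ?_⟩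
  · refine le_trans ?_ hr1.le
    unfold om
    have h4 : (1 / 20 : ℝ) ^ (3 ^ r) ≤ (1 / 20) ^ r :=
      pow_le_pow_of_le_one (by norm_num) (by norm_num) (Nat.lt_pow_self (by norm_num)).le
    have h5 : (25 : ℝ) ^ r * (1 / 5) ^ r * (1 / 20) ^ r = (1 / 4) ^ r := by
      rw [← mul_pow, ← mul_pow]; norm_num
    calc (25 : ℝ) ^ r * (1 / 4000 * (1 / 5) ^ r * (1 / 20) ^ (3 ^ r))
        = 1 / 4000 * (25 ^ r * (1 / 5) ^ r * (1 / 20) ^ (3 ^ r)) := by ring
      _ ≤ 1 / 4000 * (25 ^ r * (1 / 5) ^ r * (1 / 20) ^ r) := by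
          refine mul_le_mul_of_nonneg_left ?_ (by norm_num)
          exact mul_le_mul_of_nonneg_left h4 (by positivity)
      _ = 1 / 4000 * (1 / 4) ^ r := by rw [h5]
      _ ≤ (1 / 4) ^ r := by
          have : (0 : ℝ) < (1 / 4) ^ r := by positivity
          linarith
  · have h4 : n0 * 2 ^ (r + 1) ≤ 3 ^ (r + 1) := by
      have h5 : (n0 : ℝ) ≤ (3 / 2) ^ (r + 1) := by
        refine hr3.trans ?_
        exact pow_le_pow_right₀ (by norm_num) (Nat.le_succ r)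
      rw [div_pow, le_div_iff₀ (by positivity)] at h5
      exact_mod_cast h5
    have h5 : om (r + 1) ≤ (1 / 20 : ℝ) ^ (3 ^ (r + 1)) := by
      unfold om
      have : (1 / 4000 : ℝ) * (1 / 5) ^ (r + 1) ≤ 1 := by
        have : (1 / 5 : ℝ) ^ (r + 1) ≤ 1 := pow_le_one₀ (by norm_num) (by norm_num)
        linarith
      have h6 : (0 : ℝ) ≤ (1 / 20 : ℝ) ^ (3 ^ (r + 1)) := by positivity
      nlinarith
    calc om (r + 1) ≤ (1 / 20 : ℝ) ^ (3 ^ (r + 1)) := h5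
      _ ≤ (1 / 20 : ℝ) ^ (n0 * 2 ^ (r + 1)) := pow_le_pow_of_le_one (by norm_num) (by norm_num) h4
      _ = ((1 / 20 : ℝ) ^ n0) ^ (2 ^ (r + 1)) := by rw [pow_mul]
      _ ≤ (α ^ 2 / 2) ^ (2 ^ (r + 1)) := pow_le_pow_left₀ (by positivity) hn0.le _
      _ = (1 / 2) ^ (2 ^ (r + 1)) * α ^ (2 ^ (r + 2)) := by
          rw [show α ^ 2 / 2 = (1 / 2) * α ^ 2 by ring, mul_pow, ← pow_mul]
          congr 2
          ring
      _ ≤ ζ * α ^ (2 ^ (r + 2)) := by
          refine mul_le_mul_of_nonneg_right ?_ (by positivity)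
          refine le_trans ?_ hr2.le
          exact pow_le_pow_of_le_one (by norm_num) (by norm_num)
            ((Nat.lt_pow_self (by norm_num : 1 < 2)).le.trans (Nat.pow_le_pow_right (by norm_num) (Nat.le_succ r)))

/-- The main theorem: existence of a base level gives singularity. -/
theorem singular_of_base {β : ℝ} {γ : ℂ} (hβ : 5 / 3 ≤ β) (hγ : ‖γ‖ = 1)
    {U V : ℝ} {W : ℂ} {J : ℕ} {S A : ℝ} (L : Level β γ U V W J (om 0) S A)
    (hS : S * om 0 ≤ 1 / 50) (hJ : J ≤ 156) :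
    (bernoulliConvolution β⁻¹).MutuallySingular (volume : Measure ℝ) := by
  have hb0 := Level.inv_nonneg' hβ
  have hb1 := Level.inv_lt_one' hβ
  haveI := isProb_bernoulli hb0 hb1
  have hkap := kap_pos
  refine mutuallySingular_of_forall fun ζ hζ => ?_
  -- choose small parameter
  set z : ℝ := min (ζ / 10 ^ 13) (1 / 10 ^ 13) with hz
  have hz0 : 0 < z := by rw [hz]; positivity
  have hz1 : z ≤ 1 / 10 ^ 13 := min_le_right _ _
  have hz2 : 10 ^ 13 * z ≤ ζ := by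
    have : z ≤ ζ / 10 ^ 13 := min_le_left _ _
    rw [le_div_iff₀ (by positivity)] at this
    linarith
  have hα : 0 < kap * A := mul_pos hkap L.hA0
  obtain ⟨r, hr1, hr2⟩ := exists_level hα hz0
  obtain ⟨U', V', W', J', L', hJ'⟩ := tower_strong hβ hγ L hS hJ r
  set w := om r with hw
  set ω := om (r + 1) with hω
  have hw0 : 0 < w := om_pos r
  have hω0 : 0 < ω := om_pos (r + 1)
  have h25 : (1 : ℝ) ≤ 25 ^ r := one_le_pow₀ (by norm_num)
  have hwz : w ≤ z := by nlinarith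
  have hωeq : ω = 3200000 * (25 ^ r * w) * w ^ 2 := by rw [hω, om_succ]; ring
  set A' : ℝ := (kap * A) ^ (2 ^ (r + 1)) / kap with hA'
  have hA'0 : 0 < A' := by positivity
  -- parameters
  set K : ℕ := ⌈1 / w ^ 2⌉₊ with hK
  have hK1 : 1 / w ^ 2 ≤ K := Nat.le_ceil _
  have hK2 : (K : ℝ) < 1 / w ^ 2 + 1 := Nat.ceil_lt_add_one (by positivity)
  have hK0 : 0 < K := Nat.ceil_pos.mpr (by positivity)
  set M : ℕ := ⌈1 / ω⌉₊ with hM
  have hM1 : 1 / ω ≤ M := Nat.le_ceil _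
  have hM2 : (M : ℝ) < 1 / ω + 1 := Nat.ceil_lt_add_one (by positivity)
  have hM0 : 0 < M := Nat.ceil_pos.mpr (by positivity)
  have hw1 : w ≤ 1 / 80000 := om_le r
  have hω1 : ω ≤ 1 / 80000 := om_le (r + 1)
  have hw2 : 1 ≤ 1 / w ^ 2 := by rw [le_div_iff₀ (by positivity)]; nlinarith
  have hω2 : 1 ≤ 1 / ω := by rw [le_div_iff₀ hω0]; linarith
  have hGle : ((2 * (J' + K) : ℕ) : ℝ) ≤ 8 / w ^ 2 := by
    push_cast
    have : 8 / w ^ 2 = 8 * (1 / w ^ 2) := by ring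
    have h3 : (J' : ℝ) ≤ 2 * (1 / w ^ 2) := by rw [show 2 * (1 / w ^ 2) = 2 / w ^ 2 by ring]; exact hJ'
    rw [this]; linarith
  have hGge : 2 / w ^ 2 ≤ ((2 * (J' + K) : ℕ) : ℝ) := by
    push_cast
    have : (0 : ℝ) ≤ J' := Nat.cast_nonneg _
    have h4 : 2 / w ^ 2 = 2 * (1 / w ^ 2) := by ring
    rw [h4]; linarith
  have hMle : (M : ℝ) ≤ 2 / ω := by
    have : 2 / ω = 2 * (1 / ω) := by ring
    rw [this]; linarith
  have hMG : ω ^ 2 * (M * ((2 * (J' + K) : ℕ) : ℝ)) ≤ 51200000 * (25 ^ r * w) := by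
    calc ω ^ 2 * (M * ((2 * (J' + K) : ℕ) : ℝ)) ≤ ω ^ 2 * (2 / ω * (8 / w ^ 2)) := by
          refine mul_le_mul_of_nonneg_left ?_ (by positivity)
          exact mul_le_mul hMle hGle (Nat.cast_nonneg _) (by positivity)
      _ = 16 * ω / w ^ 2 := by field_simp; norm_num
      _ = 51200000 * (25 ^ r * w) := by rw [hωeq]; field_simp; norm_num
  have hMGz : ω ^ 2 * (M * ((2 * (J' + K) : ℕ) : ℝ)) ≤ 51200000 * z :=
    hMG.trans (by nlinarith)
  -- λ^K small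
  have hlamK : β⁻¹ ^ K ≤ 3 / 2 * w ^ 2 := by
    have h1 : 1 + (K : ℝ) * (β - 1) ≤ β ^ K := by
      have := one_add_mul_le_pow (a := β - 1) (by linarith) K
      simpa using this
    have h2 : 2 / 3 * (1 / w ^ 2) ≤ β ^ K := by
      have : (K : ℝ) * (2 / 3) ≤ K * (β - 1) := mul_le_mul_of_nonneg_left (by linarith) (Nat.cast_nonneg _)
      linarith
    rw [inv_pow, inv_le_comm₀ (by positivity) (by positivity)]
    refine le_trans (le_of_eq ?_) h2
    field_simp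
  -- η
  set η : ℝ := 10 * (14 / w) * ω + 9 * (14 / w + 1) * β⁻¹ ^ (J' + K - J') + 40 * ω +
    100 * ω ^ 2 * (M * ((2 * (J' + K) : ℕ) : ℝ)) with hη
  have hηz : η ≤ 10 ^ 10 * z := by
    rw [hη, Nat.add_sub_cancel_left]
    have hx0 : 0 < 25 ^ r * w := by positivity
    have t1 : 10 * (14 / w) * ω ≤ 10 ^ 6 * z := by
      have : 10 * (14 / w) * ω = 448000000 * (25 ^ r * w) * w := by rw [hωeq]; field_simp; norm_num
      rw [this]
      have : 448000000 * (25 ^ r * w) * w ≤ 448000000 * z * w :=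
        mul_le_mul_of_nonneg_right (by linarith) hw0.le
      have : 448000000 * z * w ≤ 448000000 * z * (1 / 80000) := mul_le_mul_of_nonneg_left hw1 (by positivity)
      linarith
    have t2 : 9 * (14 / w + 1) * β⁻¹ ^ K ≤ 1000 * z := by
      have e1 : 9 * (14 / w + 1) ≤ 135 / w := by
        have : (1 : ℝ) ≤ 1 / w := by rw [le_div_iff₀ hw0]; linarith
        have e2 : 135 / w = 9 * (14 / w + 1 / w) := by ring
        rw [e2]; linarith
      calc 9 * (14 / w + 1) * β⁻¹ ^ K ≤ 135 / w * (3 / 2 * w ^ 2) :=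
            mul_le_mul e1 hlamK (pow_nonneg hb0 _) (by positivity)
        _ = 405 / 2 * w := by field_simp; norm_num
        _ ≤ 1000 * z := by linarith
    have t3 : 40 * ω ≤ z := by
      have : ω ≤ w / 2000 := om_succ_le r
      linarith
    have t4 : 100 * ω ^ 2 * (M * ((2 * (J' + K) : ℕ) : ℝ)) ≤ 5120000000 * z := by
      rw [mul_assoc]; linarith
    linarith
  have hη1 : η ≤ 1 := hηz.trans (by linarith)
  -- Ā
  set Ā : ℝ := A' * exp (-2) with hĀ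
  have hĀ0 : 0 < Ā := by positivity
  have hĀle : Ā ≤ A' * exp (-(1 + 80 * ω ^ 2 * (M * ((2 * (J' + K) : ℕ) : ℝ)))) := by
    refine mul_le_mul_of_nonneg_left ?_ hA'0.le
    apply exp_le_exp.mpr
    have : 80 * ω ^ 2 * (M * ((2 * (J' + K) : ℕ) : ℝ)) ≤ 1 := by
      rw [mul_assoc]; linarith
    linarith
  obtain ⟨E, hE1, hE2, hE3⟩ := final_level hβ hγ L' (M := M) (G := 2 * (J' + K)) (m := J' + K) hM0
    (by omega) (by omega) le_rfl hη1 le_rfl hĀle hĀ0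
  -- ω / Ā² ≤ z
  have hĀsq : ω / Ā ^ 2 ≤ z := by
    rw [div_le_iff₀ (by positivity)]
    have e1 : Ā ^ 2 = (kap * A) ^ (2 ^ (r + 2)) * (exp (-2) ^ 2 / kap ^ 2) := by
      rw [hĀ, hA', mul_pow, div_pow, ← pow_mul]
      have : 2 ^ (r + 1) * 2 = 2 ^ (r + 2) := by ring
      rw [this]; ring
    have e2 : 1 ≤ exp (-2) ^ 2 / kap ^ 2 := by
      rw [le_div_iff₀ (by positivity), one_mul]
      refine pow_le_pow_left₀ hkap.le ?_ 2
      unfold kap
      exact exp_le_exp.mpr (by norm_num)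
    rw [e1]
    have e3 : 0 < (kap * A) ^ (2 ^ (r + 2)) := by positivity
    nlinarith
  have hMinv : 1 / (M * Ā ^ 2) ≤ z := by
    refine le_trans ?_ hĀsq
    rw [div_le_div_iff₀ (by positivity) (by positivity)]
    have : 1 ≤ ω * M := by rw [div_le_iff₀ hω0] at hM1; linarith
    nlinarith [sq_nonneg Ā]
  have hDinv : 1 / (β ^ (2 * (J' + K)) * Ā ^ 2) ≤ z := by
    refine le_trans ?_ hĀsq
    rw [div_le_div_iff₀ (by positivity) (by positivity)]
    have h1 : 1 ≤ ω * β ^ (2 * (J' + K)) := by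
      have h2 : (5 / 4 : ℝ) ^ 2 ≤ β := by norm_num; linarith
      have h3 : ((5 / 4 : ℝ) ^ (2 * (J' + K))) ^ 2 ≤ β ^ (2 * (J' + K)) := by
        rw [← pow_mul, mul_comm, pow_mul]
        exact pow_le_pow_left₀ (by norm_num) h2 _
      have h4 : 1 + ((2 * (J' + K) : ℕ) : ℝ) * (1 / 4) ≤ (5 / 4 : ℝ) ^ (2 * (J' + K)) := by
        have := one_add_mul_le_pow (a := (1 / 4 : ℝ)) (by norm_num) (2 * (J' + K))
        norm_num at this ⊢
        exact this
      have h5 : 1 / 2 * (1 / w ^ 2) ≤ (5 / 4 : ℝ) ^ (2 * (J' + K)) := by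
        have : 2 / w ^ 2 = 2 * (1 / w ^ 2) := by ring
        rw [this] at hGge
        linarith
      have h6 : (1 / 2 * (1 / w ^ 2)) ^ 2 ≤ β ^ (2 * (J' + K)) :=
        (pow_le_pow_left₀ (by positivity) h5 2).trans h3
      have h7 : w ^ 3 ≤ ω := by
        rw [hωeq]
        have : 0 < w ^ 3 := by positivity
        calc w ^ 3 ≤ 3200000 * 25 ^ r * w ^ 3 := by nlinarith
          _ = _ := by ring
      calc (1 : ℝ) ≤ w ^ 3 * (1 / 2 * (1 / w ^ 2)) ^ 2 := by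
            have : w ^ 3 * (1 / 2 * (1 / w ^ 2)) ^ 2 = 1 / (4 * w) := by field_simp; norm_num
            rw [this, le_div_iff₀ (by positivity)]
            linarith
        _ ≤ ω * β ^ (2 * (J' + K)) := mul_le_mul h7 h6 (by positivity) hω0.le
    nlinarith [sq_nonneg Ā]
  refine ⟨E, hE1, hE2.trans (ENNReal.ofReal_le_ofReal ?_), hE3.trans (ENNReal.ofReal_le_ofReal ?_)⟩
  · have : 4 * (1 / (M * Ā ^ 2) + 2 * η) ≤ 4 * (z + 2 * (10 ^ 10 * z)) := by linarith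
    linarith
  · have h1 : (1 - β⁻¹)⁻¹ / (M * Ā ^ 2) ≤ 5 / 2 * z := by
      rw [div_eq_mul_one_div]
      exact mul_le_mul (Level.one_sub_inv hβ) hMinv (by positivity) (by norm_num)
    linarith

end Crest.Agent.QSalem
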