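import Mathlib
import Crest.Agent.QSalem.Final

set_option autoImplicit false

open Real Filter Topology MeasureTheory
open Crest.AnalysisR

namespace Crest.Agent.QSalem

lemma two_mul_le_sin {y : ℝ} (h0 : 0 ≤ y) (h1 : y ≤ 1 / 2) : 2 * y ≤ sin (π * y) := by
  have hpi := pi_pos
  have := mul_le_sin (x := π * y) (by positivity) (by nlinarith)
  calc 2 * y = 2 / π * (π * y) := by field_simp
    _ ≤ _ := this

lemma abs_cos_ge {x δ : ℝ} (h0 : 0 < δ) (hδ : δ ≤ 1 / 2) (n : ℤ) (h1 : n + δ ≤ x - 1 / 2)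
    (h2 : x - 1 / 2 ≤ n + 1 - δ) : 2 * δ ≤ |cos (π * x)| := by
  set y := x - 1 / 2 - n with hy
  have hx : π * x = π * y + π / 2 + n * π := by rw [hy]; ring
  rw [hx, cos_add_int_mul_pi, abs_mul, cos_add_pi_div_two]
  have : |(-1 : ℝ) ^ n| = 1 := by
    rcases Int.even_or_odd n with h | h
    · rw [h.neg_one_zpow]; simp
    · rw [h.neg_one_zpow]; simp
  rw [this, one_mul, abs_neg]
  refine le_trans ?_ (le_abs_self _)
  rcases le_total y (1 / 2) with h | h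
  · have := two_mul_le_sin (y := y) (by linarith) h
    linarith
  · have h3 := two_mul_le_sin (y := 1 - y) (by linarith) (by linarith)
    have h4 : sin (π * (1 - y)) = sin (π * y) := by
      rw [mul_sub, mul_one, sin_pi_sub]
    rw [h4] at h3
    linarith

lemma abs_tan_le_of_cos {x δ : ℝ} (h0 : 0 < δ) (h : 2 * δ ≤ |cos x|) : |tan x| ≤ 1 / (2 * δ) := by
  rw [tan_eq_sin_div_cos, abs_div]
  exact div_le_div₀ zero_le_one (abs_sin_le_one x) (by positivity) h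

/-- pairs of conjugate elements -/
def Pr (u1 u2 x y : ℝ) : Prop := ∃ p q : ℤ, x = p + q * u1 ∧ y = p + q * u2

section pr
variable {u1 u2 : ℝ} {a b : ℤ}

lemma Pr.int (hsum : u1 + u2 = -a) {x y : ℝ} (h : Pr u1 u2 x y) : ∃ n : ℤ, x + y = n := by
  obtain ⟨p, q, rfl, rfl⟩ := h
  refine ⟨2 * p - a * q, ?_⟩
  push_cast
  have : (p : ℝ) + q * u1 + (p + q * u2) = 2 * p + q * (u1 + u2) := by ring
  rw [this, hsum]; ring

lemma Pr.mul (h1 : u1 ^ 2 + a * u1 + b = 0) (h2 : u2 ^ 2 + a * u2 + b = 0) {x y x' y' : ℝ}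
    (h : Pr u1 u2 x y) (h' : Pr u1 u2 x' y') : Pr u1 u2 (x * x') (y * y') := by
  obtain ⟨p, q, rfl, rfl⟩ := h
  obtain ⟨p', q', rfl, rfl⟩ := h'
  refine ⟨p * p' - b * (q * q'), p * q' + q * p' - a * (q * q'), ?_, ?_⟩
  · push_cast
    linear_combination (q * q' : ℝ) * h1
  · push_cast
    linear_combination (q * q' : ℝ) * h2

lemma Pr.sub {x y x' y' : ℝ} (h : Pr u1 u2 x y) (h' : Pr u1 u2 x' y') : Pr u1 u2 (x - x') (y - y') := by
  obtain ⟨p, q, rfl, rfl⟩ := h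
  obtain ⟨p', q', rfl, rfl⟩ := h'
  exact ⟨p - p', q - q', by push_cast; ring, by push_cast; ring⟩

lemma Pr.add_int {x y : ℝ} (h : Pr u1 u2 x y) (n : ℤ) : Pr u1 u2 (x + n) (y + n) := by
  obtain ⟨p, q, rfl, rfl⟩ := h
  exact ⟨p + n, q, by push_cast; ring, by push_cast; ring⟩

lemma Pr.self : Pr u1 u2 u1 u2 := ⟨0, 1, by simp, by simp⟩

lemma Pr.const (n : ℤ) : Pr u1 u2 n n := ⟨n, 0, by simp, by simp⟩

lemma Pr.pow (h1 : u1 ^ 2 + a * u1 + b = 0) (h2 : u2 ^ 2 + a * u2 + b = 0) {x y : ℝ}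
    (h : Pr u1 u2 x y) (n : ℕ) : Pr u1 u2 (x ^ n) (y ^ n) := by
  induction n with
  | zero => simpa using Pr.const (u1 := u1) (u2 := u2) 1
  | succ n ih => rw [pow_succ, pow_succ]; exact ih.mul h1 h2 h

/-- conjugate pairs of power sums -/
lemma Pr.powers {β : ℝ} (hβ : β ≠ 0) {γ : ℂ} (hγ : ‖γ‖ = 1)
    (h1 : (β + β⁻¹) ^ 2 + a * (β + β⁻¹) + b = 0) (h2 : (2 * γ.re) ^ 2 + a * (2 * γ.re) + b = 0) (m : ℕ) :
    Pr (β + β⁻¹) (2 * γ.re) (β ^ m + β⁻¹ ^ m) (2 * (γ ^ m).re) ∧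
    Pr (β + β⁻¹) (2 * γ.re) (β ^ (m + 1) + β⁻¹ ^ (m + 1)) (2 * (γ ^ (m + 1)).re) := by
  induction m with
  | zero =>
    constructor
    · have := Pr.const (u1 := β + β⁻¹) (u2 := 2 * γ.re) 2
      simpa [show (1 : ℝ) + 1 = 2 by norm_num] using this
    · simpa using Pr.self (u1 := β + β⁻¹) (u2 := 2 * γ.re)
  | succ m ih =>
    refine ⟨ih.2, ?_⟩
    have e1 : β ^ (m + 1 + 1) + β⁻¹ ^ (m + 1 + 1) =
        (β + β⁻¹) * (β ^ (m + 1) + β⁻¹ ^ (m + 1)) - (β ^ m + β⁻¹ ^ m) := by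
      have : β * β⁻¹ = 1 := mul_inv_cancel₀ hβ
      calc β ^ (m + 1 + 1) + β⁻¹ ^ (m + 1 + 1)
          = β ^ (m + 1 + 1) + β⁻¹ ^ (m + 1 + 1) + (β * β⁻¹ - 1) * (β ^ m + β⁻¹ ^ m) := by rw [this]; ring
        _ = _ := by ring
    have hn : γ.re ^ 2 + γ.im ^ 2 = 1 := by
      have h3 := Complex.normSq_apply γ
      rw [Complex.normSq_eq_norm_sq, hγ] at h3
      linarith
    have e2 : 2 * (γ ^ (m + 1 + 1)).re = (2 * γ.re) * (2 * (γ ^ (m + 1)).re) - 2 * (γ ^ m).re := by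
      have e3 : (γ ^ (m + 1)).re = (γ ^ m).re * γ.re - (γ ^ m).im * γ.im := by
        rw [pow_succ, Complex.mul_re]
      have e4 : (γ ^ (m + 1)).im = (γ ^ m).re * γ.im + (γ ^ m).im * γ.re := by
        rw [pow_succ, Complex.mul_im]
      rw [pow_succ γ (m + 1), Complex.mul_re, e3, e4]
      linear_combination (-2 * (γ ^ m).re) * hn
    rw [e1, e2]
    exact (Pr.self.mul h1 h2 ih.2).sub ih.1

end pr

lemma exists_A {β U : ℝ} (hβ : 5 / 3 ≤ β) (hU : 0 ≤ U) {J : ℕ} (hUJ : U ≤ β ^ J / 4)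
    (hc : ∀ i : ℕ, cos (ang β U (-(i : ℤ))) ≠ 0) :
    ∃ A : ℝ, 0 < A ∧ ∀ n, A ≤ ∏ i ∈ Finset.range n, |cos (ang β U (-(i : ℤ)))| := by
  have hb0 := Level.inv_nonneg' hβ
  have hb1 := (Level.inv_lt_one' hβ).le
  have hβ0 : 0 < β := by linarith
  refine ⟨(∏ i ∈ Finset.range J, |cos (ang β U (-(i : ℤ)))|) * exp (-(5 / 2)), ?_, fun n => ?_⟩
  · exact mul_pos (Finset.prod_pos fun i _ => abs_pos.mpr (hc i)) (exp_pos _)
  · have h1 : ∏ i ∈ Finset.range (J + n), |cos (ang β U (-(i : ℤ)))| ≤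
        ∏ i ∈ Finset.range n, |cos (ang β U (-(i : ℤ)))| := by
      rw [add_comm, Finset.prod_range_add]
      exact mul_le_of_le_one_right (Finset.prod_nonneg fun _ _ => abs_nonneg _)
        (Finset.prod_le_one (fun _ _ => abs_nonneg _) (fun _ _ => abs_cos_le_one _))
    refine le_trans ?_ h1
    rw [Finset.prod_range_add]
    refine mul_le_mul_of_nonneg_left ?_ (Finset.prod_nonneg fun _ _ => abs_nonneg _)
    calc exp (-(5 / 2)) ≤ exp (∑ i ∈ Finset.range n, -(β⁻¹ ^ i)) := by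
          apply exp_le_exp.mpr
          rw [Finset.sum_neg_distrib]
          have := Level.geo hβ n
          linarith
      _ = ∏ i ∈ Finset.range n, exp (-(β⁻¹ ^ i)) := exp_sum _ _
      _ ≤ _ := by
          refine Finset.prod_le_prod (fun _ _ => (exp_pos _).le) fun i _ => ?_
          have hy : U * β ^ (-((J + i : ℕ) : ℤ)) ≤ β⁻¹ ^ i / 4 := by
            rw [zpow_neg, zpow_natCast, ← inv_pow]
            calc U * β⁻¹ ^ (J + i) ≤ β ^ J / 4 * β⁻¹ ^ (J + i) :=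
                  mul_le_mul_of_nonneg_right hUJ (pow_nonneg hb0 _)
              _ = _ := by
                  rw [pow_add, inv_pow]
                  field_simp
          have hy0 : 0 ≤ U * β ^ (-((J + i : ℕ) : ℤ)) := by positivity
          have hp1 : β⁻¹ ^ i ≤ 1 := pow_le_one₀ hb0 hb1
          have hp0 : 0 ≤ β⁻¹ ^ i := pow_nonneg hb0 i
          have h3 : |U * β ^ (-((J + i : ℕ) : ℤ))| ≤ 1 / 4 := by rw [abs_of_nonneg hy0]; linarith
          refine le_trans ?_ ((cos_ge_exp h3).trans (le_abs_self _))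
          apply exp_le_exp.mpr
          nlinarith

lemma base_level {β : ℝ} (hβ : 5 / 3 ≤ β) {u2 : ℝ} (hu2 : |u2| ≤ 2) {a b : ℤ}
    (h1 : (β + β⁻¹) ^ 2 + a * (β + β⁻¹) + b = 0) (h2 : u2 ^ 2 + a * u2 + b = 0)
    (hsum : β + β⁻¹ + u2 = -a) {Q w : ℝ} (hQw : Pr (β + β⁻¹) u2 Q w) {s I : ℕ}
    (hdist : ∀ i < I, ∃ n : ℤ, (n : ℝ) + 1 / 30 ≤ Q * β⁻¹ ^ i - 1 / 2 ∧
      Q * β⁻¹ ^ i - 1 / 2 ≤ n + 1 - 1 / 30)
    (hI : Q * β⁻¹ ^ I ≤ 1 / 4) (hs : Q * β⁻¹ ^ s ≤ 1 / 8) (hQ1 : 1 ≤ Q) (hw : |w| ≤ 1 / 80000)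
    (hJ : s + I ≤ 79) :
    (bernoulliConvolution β⁻¹).MutuallySingular (volume : Measure ℝ) := by
  have hb0 := Level.inv_nonneg' hβ
  have hb1 := (Level.inv_lt_one' hβ).le
  have hβ0 : 0 < β := by linarith
  -- the unit complex number
  set γ : ℂ := ⟨u2 / 2, Real.sqrt (1 - (u2 / 2) ^ 2)⟩ with hγdef
  have hre : 2 * γ.re = u2 := by simp only [hγdef]; ring
  have hu2sq : (u2 / 2) ^ 2 ≤ 1 := by
    have := abs_le.mp hu2
    nlinarith [this.1, this.2]
  have hγ : ‖γ‖ = 1 := by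
    have h3 : ‖γ‖ ^ 2 = 1 := by
      rw [← Complex.normSq_eq_norm_sq, Complex.normSq_apply]
      simp only [hγdef]
      rw [Real.mul_self_sqrt (by linarith)]
      ring
    have h4 := norm_nonneg γ
    nlinarith
  rw [← hre] at hQw h2 hsum
  have hpow := fun m => (Pr.powers hβ0.ne' hγ h1 h2 m).1
  -- integrality
  have hint : ∀ m : ℕ, ∃ n : ℤ, Q * (β ^ m + β⁻¹ ^ m) + w * (2 * (γ ^ m).re) = n :=
    fun m => (hQw.mul h1 h2 (hpow m)).int hsum
  -- distances for all i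
  have hdist' : ∀ i : ℕ, ∃ n : ℤ, (n : ℝ) + 1 / 30 ≤ Q * β⁻¹ ^ i - 1 / 2 ∧
      Q * β⁻¹ ^ i - 1 / 2 ≤ n + 1 - 1 / 30 := by
    intro i
    by_cases h : i < I
    · exact hdist i h
    · refine ⟨-1, ?_, ?_⟩
      · have : 0 ≤ Q * β⁻¹ ^ i := mul_nonneg (by linarith) (pow_nonneg hb0 _)
        push_cast; linarith
      · have : Q * β⁻¹ ^ i ≤ Q * β⁻¹ ^ I :=
          mul_le_mul_of_nonneg_left (pow_le_pow_of_le_one hb0 hb1 (by omega)) (by linarith)
        push_cast; linarith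
  have hcosneg : ∀ i : ℕ, 2 * (1 / 40) ≤ |cos (π * (Q * β⁻¹ ^ i))| := by
    intro i
    obtain ⟨n, h3, h4⟩ := hdist' i
    exact abs_cos_ge (by norm_num) (by norm_num) n (by linarith) (by linarith)
  have hcospos : ∀ i : ℕ, 2 * (1 / 40) ≤ |cos (π * (Q * β ^ i))| := by
    intro i
    obtain ⟨n, h3, h4⟩ := hdist' i
    obtain ⟨m, hm⟩ := hint i
    have h5 : Q * β ^ i = m - (Q * β⁻¹ ^ i + w * (2 * (γ ^ i).re)) := by linarith
    rw [h5, abs_cos_int_sub]
    have h6 : |w * (2 * (γ ^ i).re)| ≤ 1 / 40000 := by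
      have h7 := Complex.abs_re_le_norm (γ ^ i)
      rw [norm_pow, hγ, one_pow] at h7
      rw [abs_mul, abs_mul, abs_two]
      have := abs_nonneg w
      nlinarith [abs_nonneg (γ ^ i).re]
    have h8 := abs_le.mp h6
    exact abs_cos_ge (by norm_num) (by norm_num) n (by linarith [h8.1]) (by linarith [h8.2])
  set U : ℝ := Q * β ^ s with hU
  have hUJ : U ≤ β ^ (s + I) / 4 := by
    rw [hU, pow_add]
    have h3 : Q ≤ β ^ I / 4 := by
      have h4 : Q * β⁻¹ ^ I * β ^ I ≤ 1 / 4 * β ^ I := mul_le_mul_of_nonneg_right hI (by positivity)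
      rw [inv_pow, mul_assoc, inv_mul_cancel₀ (by positivity), mul_one] at h4
      linarith
    have h5 : 0 < β ^ s := by positivity
    nlinarith
  have hang : ∀ i : ℕ, ang β U (-(i : ℤ)) = π * (Q * β ^ ((s : ℤ) - i)) := by
    intro i
    unfold ang
    rw [hU, sub_eq_add_neg, zpow_add₀ hβ0.ne', zpow_natCast]
    ring
  have hcosall : ∀ i : ℕ, 2 * (1 / 40) ≤ |cos (ang β U (-(i : ℤ)))| := by
    intro i
    rw [hang]
    rcases le_total i s with h | h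
    · have : (s : ℤ) - i = ((s - i : ℕ) : ℤ) := by omega
      rw [this, zpow_natCast]
      exact hcospos _
    · have : (s : ℤ) - i = -((i - s : ℕ) : ℤ) := by omega
      rw [this, zpow_neg, zpow_natCast, ← inv_pow]
      exact hcosneg _
  have hcosne : ∀ i : ℕ, cos (ang β U (-(i : ℤ))) ≠ 0 := by
    intro i h
    have := hcosall i
    rw [h, abs_zero] at this
    norm_num at this
  have hU1 : 1 ≤ U := by
    rw [hU]
    have : 1 ≤ β ^ s := one_le_pow₀ (by linarith)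
    nlinarith
  obtain ⟨A, hA0, hA⟩ := exists_A hβ (by linarith) hUJ hcosne
  have L : Level β γ U (Q * β⁻¹ ^ s) (w * γ ^ s) (s + I) (om 0) (20 * (s + I) + 5) A := by
    refine ⟨?_, ?_, ?_, ?_, hU1, hUJ, hcosne, ?_, hA, hA0⟩
    · intro n
      obtain ⟨m, hm⟩ := hint (s + n)
      refine ⟨m, ?_⟩
      rw [← hm, hU]
      have e1 : ((w : ℂ) * γ ^ s * γ ^ n).re = w * (γ ^ (s + n)).re := by
        rw [mul_assoc, ← pow_add, Complex.re_ofReal_mul]
      rw [e1, pow_add, pow_add]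
      ring
    · rw [abs_of_nonneg (mul_nonneg (by linarith) (pow_nonneg hb0 _))]
      exact hs
    · rw [norm_mul, norm_pow, hγ, one_pow, mul_one, Complex.norm_real, Real.norm_eq_abs, om_zero]
      exact hw
    · rw [om_zero]; norm_num
    · intro n
      have h3 : ∑ i ∈ Finset.range n, |tan (ang β U (-(i : ℤ)))| ≤
          ∑ i ∈ Finset.range (s + I + n), |tan (ang β U (-(i : ℤ)))| := by
        refine Finset.sum_le_sum_of_subset_of_nonneg ?_ (fun _ _ _ => abs_nonneg _)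
        intro x; simp only [Finset.mem_range]; omega
      refine h3.trans ?_
      rw [Finset.sum_range_add]
      have h4 : ∑ i ∈ Finset.range (s + I), |tan (ang β U (-(i : ℤ)))| ≤ 20 * (s + I) := by
        have : ∀ i ∈ Finset.range (s + I), |tan (ang β U (-(i : ℤ)))| ≤ 20 := by
          intro i _
          have := abs_tan_le_of_cos (by norm_num) (hcosall i)
          norm_num at this
          exact this
        refine (Finset.sum_le_sum this).trans ?_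
        simp only [Finset.sum_const, Finset.card_range, nsmul_eq_mul]
        push_cast
        linarith
      have h5 : ∑ i ∈ Finset.range n, |tan (ang β U (-((s + I + i : ℕ) : ℤ)))| ≤ 5 := by
        have : ∀ i ∈ Finset.range n, |tan (ang β U (-((s + I + i : ℕ) : ℤ)))| ≤ 5 / 4 * β⁻¹ ^ i := by
          intro i _
          have hy : U * β ^ (-((s + I + i : ℕ) : ℤ)) ≤ β⁻¹ ^ i / 4 := by
            rw [zpow_neg, zpow_natCast, ← inv_pow]
            calc U * β⁻¹ ^ (s + I + i) ≤ β ^ (s + I) / 4 * β⁻¹ ^ (s + I + i) :=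
                  mul_le_mul_of_nonneg_right hUJ (pow_nonneg hb0 _)
              _ = _ := by
                  rw [pow_add β⁻¹ (s + I), inv_pow]
                  field_simp
          have hy0 : 0 ≤ U * β ^ (-((s + I + i : ℕ) : ℤ)) := by positivity
          have hp1 : β⁻¹ ^ i ≤ 1 := pow_le_one₀ hb0 hb1
          have h6 : |U * β ^ (-((s + I + i : ℕ) : ℤ))| ≤ 1 / 4 := by rw [abs_of_nonneg hy0]; linarith
          have h7 := abs_tan_le_of_small h6
          rw [abs_of_nonneg hy0] at h7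
          unfold ang
          linarith
        refine (Finset.sum_le_sum this).trans ?_
        rw [← Finset.mul_sum]
        have := Level.geo hβ n
        linarith
      linarith
  refine singular_of_base hβ hγ L ?_ (by omega)
  rw [om_zero]
  have : ((s : ℝ) + I) ≤ 79 := by exact_mod_cast hJ
  linarith

/-- numeric enclosure helper -/
lemma dist_helper {Q l Qlo Qhi llo lhi : ℝ} (h1 : Qlo ≤ Q) (h2 : Q ≤ Qhi) (h3 : llo ≤ l) (h4 : l ≤ lhi)
    (h5 : 0 ≤ llo) (h6 : 0 ≤ Qlo) (i : ℕ) (n : ℤ) (h7 : (n : ℝ) + 1 / 30 ≤ Qlo * llo ^ i - 1 / 2)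
    (h8 : Qhi * lhi ^ i - 1 / 2 ≤ n + 1 - 1 / 30) :
    ∃ n : ℤ, (n : ℝ) + 1 / 30 ≤ Q * l ^ i - 1 / 2 ∧ Q * l ^ i - 1 / 2 ≤ n + 1 - 1 / 30 := by
  refine ⟨n, ?_, ?_⟩
  · have : Qlo * llo ^ i ≤ Q * l ^ i :=
      mul_le_mul h1 (pow_le_pow_left₀ h5 h3 i) (pow_nonneg h5 i) (h6.trans h1)
    linarith
  · have : Q * l ^ i ≤ Qhi * lhi ^ i :=
      mul_le_mul h2 (pow_le_pow_left₀ (h5.trans h3) h4 i) (pow_nonneg (h5.trans h3) i) ((h6.trans h1).trans h2)
    linarith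

end Crest.Agent.QSalem
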