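import Mathlib
import Crest.Agent.QSalem.Base

set_option autoImplicit false

open Real Filter Topology MeasureTheory
open Crest.AnalysisR

namespace Crest.Agent.QSalem

lemma inv_enclosure {β u lo hi ulo uhi : ℝ} (hβ : 1 < β) (hu : β + β⁻¹ = u)
    (h1 : ulo ≤ u) (h2 : u ≤ uhi) (hlo : 0 < lo) (hlo1 : lo < 1) (hhi1 : hi < 1) (hhi0 : 0 < hi)
    (h3 : 0 < lo ^ 2 - uhi * lo + 1) (h4 : hi ^ 2 - ulo * hi + 1 < 0) :
    lo ≤ β⁻¹ ∧ β⁻¹ ≤ hi := by
  have hβ0 : 0 < β := by linarith
  have hl0 : 0 < β⁻¹ := inv_pos.mpr hβ0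
  have hl1 : β⁻¹ < 1 := inv_lt_one_of_one_lt₀ hβ
  have hmul : β * β⁻¹ = 1 := mul_inv_cancel₀ hβ0.ne'
  have heq : β⁻¹ ^ 2 - u * β⁻¹ + 1 = 0 := by
    rw [← hu]; nlinarith
  have hu2 : 2 < u := by
    rw [← hu]; nlinarith [sq_nonneg (β - 1)]
  constructor
  · by_contra h
    push Not at h
    have := mul_pos (sub_pos.mpr h) (by linarith : 0 < u - β⁻¹ - lo)
    nlinarith
  · by_contra h
    push Not at h
    have := mul_pos (sub_pos.mpr h) (by linarith : 0 < u - β⁻¹ - hi)
    nlinarith

theorem case_one {β : ℝ} (hβ : 1 < β) (heq : (β + β⁻¹) ^ 2 - (β + β⁻¹) - 3 = 0) :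
    (bernoulliConvolution β⁻¹).MutuallySingular (volume : Measure ℝ) := by
  have hβ0 : 0 < β := by linarith
  set u := β + β⁻¹ with hu
  have hl0 : 0 < β⁻¹ := inv_pos.mpr hβ0
  have hmul : β * β⁻¹ = 1 := mul_inv_cancel₀ hβ0.ne'
  have hu2 : 2 < u := by
    rw [hu]; nlinarith [sq_nonneg (β - 1)]
  have hulo : (2.302775637731 : ℝ) ≤ u := by nlinarith
  have huhi : u ≤ (2.302775637732 : ℝ) := by nlinarith
  obtain ⟨hlo, hhi⟩ := inv_enclosure (lo := 0.58069183198) (hi := 0.58069183201) hβ hu.symm hulo huhi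
    (by norm_num) (by norm_num) (by norm_num) (by norm_num) (by norm_num) (by norm_num)
  have hβ53 : 5 / 3 ≤ β := by
    have : β = u - β⁻¹ := by rw [hu]; ring
    rw [this]; norm_num at *; linarith
  have hQlo : (154450.999 : ℝ) ≤ (1 + u) ^ 10 := by
    calc (154450.999 : ℝ) ≤ (1 + 2.302775637731) ^ 10 := by norm_num
      _ ≤ _ := pow_le_pow_left₀ (by norm_num) (by linarith) 10
  have hQhi : (1 + u) ^ 10 ≤ (154451.001 : ℝ) := by
    calc (1 + u) ^ 10 ≤ (1 + 2.302775637732) ^ 10 := pow_le_pow_left₀ (by linarith) (by linarith) 10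
      _ ≤ _ := by norm_num
  refine base_level (u2 := 1 - u) (a := -1) (b := -3) (Q := (1 + u) ^ 10) (w := (1 + (1 - u)) ^ 10)
    (s := 26) (I := 25) hβ53 ?_ ?_ ?_ ?_ ?_ ?_ ?_ ?_ ?_ ?_ (by norm_num)
  · rw [abs_le]; constructor <;> linarith
  · push_cast; linarith
  · push_cast; nlinarith
  · push_cast; ring
  · refine Pr.pow (a := -1) (b := -3) ?_ ?_ ?_ 10
    · push_cast; linarith
    · push_cast; nlinarith
    · exact ⟨1, 1, by push_cast; ring, by push_cast; ring⟩
  · intro i hi
    have key := fun n h7 h8 => dist_helper hQlo hQhi hlo hhi (by norm_num) (by norm_num) i n h7 h8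
    interval_cases i
    · exact key 154450 (by norm_num) (by norm_num)
    · exact key 89687 (by norm_num) (by norm_num)
    · exact key 52080 (by norm_num) (by norm_num)
    · exact key 30242 (by norm_num) (by norm_num)
    · exact key 17561 (by norm_num) (by norm_num)
    · exact key 10197 (by norm_num) (by norm_num)
    · exact key 5921 (by norm_num) (by norm_num)
    · exact key 3438 (by norm_num) (by norm_num)
    · exact key 1996 (by norm_num) (by norm_num)
    · exact key 1159 (by norm_num) (by norm_num)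
    · exact key 672 (by norm_num) (by norm_num)
    · exact key 390 (by norm_num) (by norm_num)
    · exact key 226 (by norm_num) (by norm_num)
    · exact key 131 (by norm_num) (by norm_num)
    · exact key 76 (by norm_num) (by norm_num)
    · exact key 43 (by norm_num) (by norm_num)
    · exact key 25 (by norm_num) (by norm_num)
    · exact key 14 (by norm_num) (by norm_num)
    · exact key 8 (by norm_num) (by norm_num)
    · exact key 4 (by norm_num) (by norm_num)
    · exact key 2 (by norm_num) (by norm_num)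
    · exact key 1 (by norm_num) (by norm_num)
    · exact key 0 (by norm_num) (by norm_num)
    · exact key 0 (by norm_num) (by norm_num)
    · exact key (-1) (by norm_num) (by norm_num)
  · calc (1 + u) ^ 10 * β⁻¹ ^ 25 ≤ 154451.001 * 0.58069183201 ^ 25 :=
          mul_le_mul hQhi (pow_le_pow_left₀ hl0.le hhi _) (by positivity) (by norm_num)
      _ ≤ 1 / 4 := by norm_num
  · calc (1 + u) ^ 10 * β⁻¹ ^ 26 ≤ 154451.001 * 0.58069183201 ^ 26 :=
          mul_le_mul hQhi (pow_le_pow_left₀ hl0.le hhi _) (by positivity) (by norm_num)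
      _ ≤ 1 / 8 := by norm_num
  · linarith
  · rw [abs_pow]
    have : |1 + (1 - u)| ≤ 0.3028 := by rw [abs_le]; constructor <;> norm_num <;> linarith
    calc |1 + (1 - u)| ^ 10 ≤ 0.3028 ^ 10 := pow_le_pow_left₀ (abs_nonneg _) this 10
      _ ≤ 1 / 80000 := by norm_num

theorem case_two {β : ℝ} (hβ : 1 < β) (heq : (β + β⁻¹) ^ 2 - 2 * (β + β⁻¹) - 1 = 0) :
    (bernoulliConvolution β⁻¹).MutuallySingular (volume : Measure ℝ) := by
  have hβ0 : 0 < β := by linarith
  set u := β + β⁻¹ with hu
  have hl0 : 0 < β⁻¹ := inv_pos.mpr hβ0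
  have hmul : β * β⁻¹ = 1 := mul_inv_cancel₀ hβ0.ne'
  have hu2 : 2 < u := by
    rw [hu]; nlinarith [sq_nonneg (β - 1)]
  have hulo : (2.414213562373 : ℝ) ≤ u := by nlinarith
  have huhi : u ≤ (2.414213562374 : ℝ) := by nlinarith
  obtain ⟨hlo, hhi⟩ := inv_enclosure (lo := 0.53101005644) (hi := 0.53101005648) hβ hu.symm hulo huhi
    (by norm_num) (by norm_num) (by norm_num) (by norm_num) (by norm_num) (by norm_num)
  have hβ53 : 5 / 3 ≤ β := by
    have : β = u - β⁻¹ := by rw [hu]; ring
    rw [this]; norm_num at *; linarith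
  have hQlo : (94641.999 : ℝ) ≤ u ^ 13 := by
    calc (94641.999 : ℝ) ≤ 2.414213562373 ^ 13 := by norm_num
      _ ≤ _ := pow_le_pow_left₀ (by norm_num) (by linarith) 13
  have hQhi : u ^ 13 ≤ (94642.001 : ℝ) := by
    calc u ^ 13 ≤ 2.414213562374 ^ 13 := pow_le_pow_left₀ (by linarith) (by linarith) 13
      _ ≤ _ := by norm_num
  refine base_level (u2 := 2 - u) (a := -2) (b := -1) (Q := u ^ 13) (w := (2 - u) ^ 13)
    (s := 22) (I := 21) hβ53 ?_ ?_ ?_ ?_ ?_ ?_ ?_ ?_ ?_ ?_ (by norm_num)
  · rw [abs_le]; constructor <;> linarith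
  · push_cast; linarith
  · push_cast; nlinarith
  · push_cast; ring
  · refine Pr.pow (a := -2) (b := -1) ?_ ?_ ?_ 13
    · push_cast; linarith
    · push_cast; nlinarith
    · exact ⟨0, 1, by push_cast; ring, by push_cast; ring⟩
  · intro i hi
    have key := fun n h7 h8 => dist_helper hQlo hQhi hlo hhi (by norm_num) (by norm_num) i n h7 h8
    interval_cases i
    · exact key 94641 (by norm_num) (by norm_num)
    · exact key 50255 (by norm_num) (by norm_num)
    · exact key 26685 (by norm_num) (by norm_num)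
    · exact key 14170 (by norm_num) (by norm_num)
    · exact key 7524 (by norm_num) (by norm_num)
    · exact key 3995 (by norm_num) (by norm_num)
    · exact key 2121 (by norm_num) (by norm_num)
    · exact key 1126 (by norm_num) (by norm_num)
    · exact key 597 (by norm_num) (by norm_num)
    · exact key 317 (by norm_num) (by norm_num)
    · exact key 168 (by norm_num) (by norm_num)
    · exact key 89 (by norm_num) (by norm_num)
    · exact key 47 (by norm_num) (by norm_num)
    · exact key 24 (by norm_num) (by norm_num)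
    · exact key 12 (by norm_num) (by norm_num)
    · exact key 6 (by norm_num) (by norm_num)
    · exact key 3 (by norm_num) (by norm_num)
    · exact key 1 (by norm_num) (by norm_num)
    · exact key 0 (by norm_num) (by norm_num)
    · exact key 0 (by norm_num) (by norm_num)
    · exact key (-1) (by norm_num) (by norm_num)
  · calc u ^ 13 * β⁻¹ ^ 21 ≤ 94642.001 * 0.53101005648 ^ 21 :=
          mul_le_mul hQhi (pow_le_pow_left₀ hl0.le hhi _) (by positivity) (by norm_num)
      _ ≤ 1 / 4 := by norm_num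
  · calc u ^ 13 * β⁻¹ ^ 22 ≤ 94642.001 * 0.53101005648 ^ 22 :=
          mul_le_mul hQhi (pow_le_pow_left₀ hl0.le hhi _) (by positivity) (by norm_num)
      _ ≤ 1 / 8 := by norm_num
  · linarith
  · rw [abs_pow]
    have : |2 - u| ≤ 0.4143 := by rw [abs_le]; constructor <;> norm_num <;> linarith
    calc |2 - u| ^ 13 ≤ 0.4143 ^ 13 := pow_le_pow_left₀ (abs_nonneg _) this 13
      _ ≤ 1 / 80000 := by norm_num

end Crest.Agent.QSalem
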